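import Vale.Agent.P195.Exact

/-! The finite dimensional algebra. -/

namespace Vale.Agent.P195

open Finset

variable {K : Type} [Field K]

/-- layer as an integer -/
def zz (a : Fin 7) : ℤ := (a : ℕ)

lemma zz_bd (a : Fin 7) : 0 ≤ zz a ∧ zz a ≤ 6 := by unfold zz; omega
lemma zz_inj {a b : Fin 7} : zz a = zz b ↔ a = b := by unfold zz; omega
lemma zz_ex {v : ℤ} (h : ¬ (v < 0 ∨ 6 < v)) : ∃ a, v = zz a :=
  ⟨⟨v.toNat, by omega⟩, by simp only [zz]; omega⟩

variable (K) in
/-- graded matrices -/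
noncomputable def Asub : Subalgebra K (Matrix (Fin 7) (Fin 7) (C K)) where
  carrier := {b | ∀ j i, b j i ∈ Gs K (zz j - zz i) 0}
  mul_mem' := by
    intro b b' hb hb' j i
    rw [Matrix.mul_apply]
    exact Submodule.sum_mem _ fun k _ => Gs_mul' (hb j k) (hb' k i) (by ring) (by omega)
  add_mem' := fun hb hb' j i => add_mem (hb j i) (hb' j i)
  algebraMap_mem' := by
    intro r j i
    rw [Algebra.algebraMap_eq_smul_one, Matrix.smul_apply, Matrix.one_apply]
    refine Submodule.smul_mem _ _ ?_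
    split_ifs with h
    · subst h; exact Gs_mono one_mem (by ring) (by omega)
    · exact zero_mem _

variable (K) in
/-- the covering algebra -/
def At : Type := Asub K

noncomputable instance : Ring (At K) := inferInstanceAs (Ring (Asub K))
noncomputable instance : Algebra K (At K) := inferInstanceAs (Algebra K (Asub K))

variable (K) in
/-- inclusion -/
noncomputable def val : At K →ₐ[K] Matrix (Fin 7) (Fin 7) (C K) := (Asub K).val

lemma val_inj : Function.Injective (val K) := Subtype.val_injective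
lemma val_mem (b : At K) (j i : Fin 7) : val K b j i ∈ Gs K (zz j - zz i) 0 := b.2 j i

instance : Module.Finite K (At K) := Module.Finite.of_injective (val K).toLinearMap val_inj

/-- element of the covering algebra -/
def mkAt (b : Matrix (Fin 7) (Fin 7) (C K)) (hb : ∀ j i, b j i ∈ Gs K (zz j - zz i) 0) : At K :=
  ⟨b, hb⟩

lemma val_mk (b : Matrix (Fin 7) (Fin 7) (C K)) (hb) : val K (mkAt b hb) = b := rfl

variable (K) in
/-- the ideal of relations -/
noncomputable def Kid : Ideal (At K) where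
  carrier := {b | ∀ j i, val K b j i ∈ Kk K (zz j) (zz i)}
  add_mem' := fun hb hb' j i => by rw [map_add]; exact add_mem (hb j i) (hb' j i)
  zero_mem' := fun j i => by rw [map_zero]; exact zero_mem _
  smul_mem' := by
    intro a b hb j i
    rw [smul_eq_mul, map_mul, Matrix.mul_apply]
    refine Submodule.sum_mem _ fun k _ => ?_
    exact Gs_mul' (Gs_mono (s' := max 0 (zz k - zz j)) (val_mem a j k) rfl (by omega)) (hb k i)
      (by ring) (by omega)

lemma mem_Kid {b : At K} : b ∈ Kid K ↔ ∀ j i, val K b j i ∈ Kk K (zz j) (zz i) := Iff.rfl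

instance : (Kid K).IsTwoSided where
  mul_mem_of_left := by
    intro b a hb j i
    rw [map_mul, Matrix.mul_apply]
    refine Submodule.sum_mem _ fun k _ => ?_
    exact Gs_mul' (hb j k) (Gs_mono (s' := max 0 (zz i - zz k)) (val_mem a k i) rfl (by omega))
      (by ring) (by omega)

variable (K) in
/-- the algebra -/
def Alg : Type := At K ⧸ Kid K

noncomputable instance : Ring (Alg K) := inferInstanceAs (Ring (At K ⧸ Kid K))
noncomputable instance : Algebra K (Alg K) := inferInstanceAs (Algebra K (At K ⧸ Kid K))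

variable (K) in
/-- quotient map -/
noncomputable def mkA : At K →ₐ[K] Alg K := Ideal.Quotient.mkₐ K (Kid K)

lemma mkA_surj : Function.Surjective (mkA K) := Ideal.Quotient.mkₐ_surjective K (Kid K)
lemma mkA_zero {b : At K} : mkA K b = 0 ↔ b ∈ Kid K := Ideal.Quotient.eq_zero_iff_mem

instance : Module.Finite K (Alg K) := Module.Finite.of_surjective (mkA K).toLinearMap mkA_surj

/-- a single entry -/
noncomputable def sm (j v : ℤ) (x : C K) : Matrix (Fin 7) (Fin 7) (C K) :=
  Matrix.of fun a b => if zz a = j ∧ zz b = v then x else 0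

lemma sm_apply (j v : ℤ) (x : C K) (a b : Fin 7) :
    sm j v x a b = if zz a = j ∧ zz b = v then x else 0 := rfl

lemma sm_mem {j v : ℤ} {x : C K} (hx : x ∈ Gs K (j - v) 0) (a b : Fin 7) :
    sm j v x a b ∈ Gs K (zz a - zz b) 0 := by
  rw [sm_apply]
  split_ifs with h
  · rw [h.1, h.2]; exact hx
  · exact zero_mem _

/-- representation of an element of the algebra by an element of C -/
def Rp (j v : ℤ) (a : Alg K) (x : C K) : Prop :=
  ∃ h : x ∈ Gs K (j - v) 0, a = mkA K (mkAt (sm j v x) (sm_mem h))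

lemma Rp_ex {j v : ℤ} {x : C K} (hx : x ∈ Gs K (j - v) 0) : ∃ a, Rp j v a x := ⟨_, hx, rfl⟩

namespace Rp

variable {j v : ℤ} {a b : Alg K} {x y : C K}

lemma mem (h : Rp j v a x) : x ∈ Gs K (j - v) 0 := h.1

lemma uniq (h : Rp j v a x) (h' : Rp j v b x) : a = b := by
  obtain ⟨_, rfl⟩ := h
  obtain ⟨_, rfl⟩ := h'
  rfl

lemma add (h : Rp j v a x) (h' : Rp j v b y) : Rp j v (a + b) (x + y) := by
  obtain ⟨h, rfl⟩ := h
  obtain ⟨h', rfl⟩ := h'
  refine ⟨add_mem h h', ?_⟩
  rw [← map_add]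
  congr 1
  apply val_inj
  ext a b
  simp only [map_add, val_mk, Matrix.add_apply, sm_apply]
  split_ifs <;> simp

lemma smul (r : K) (h : Rp j v a x) : Rp j v (r • a) (r • x) := by
  obtain ⟨h, rfl⟩ := h
  refine ⟨Submodule.smul_mem _ _ h, ?_⟩
  rw [← map_smul]
  congr 1
  apply val_inj
  ext a b
  simp only [map_smul, val_mk, Matrix.smul_apply, sm_apply]
  split_ifs <;> simp

lemma zsmul (r : ℤ) (h : Rp j v a x) : Rp j v (r • a) (r • x) := by
  simpa only [Int.cast_smul_eq_zsmul] using h.smul (r : K)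

lemma sub (h : Rp j v a x) (h' : Rp j v b y) : Rp j v (a - b) (x - y) := by
  simpa only [neg_one_zsmul, ← sub_eq_add_neg] using h.add (h'.zsmul (-1))

lemma zero_iff (h : Rp j v a x) : a = 0 ↔ x ∈ Kk K j v := by
  obtain ⟨h, rfl⟩ := h
  rw [mkA_zero, mem_Kid]
  constructor
  · intro H
    by_cases hj : j < 0 ∨ 6 < j
    · by_cases hv : v < 0 ∨ 6 < v
      · exact Gs_to h rfl (by omega)
      · exact Gs_to h rfl (by omega)
    · by_cases hv : v < 0 ∨ 6 < v
      · exact Gs_to h rfl (by omega)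
      · obtain ⟨a, rfl⟩ := zz_ex hj
        obtain ⟨b, rfl⟩ := zz_ex hv
        simpa [val_mk, sm_apply] using H a b
  · intro H a b
    rw [val_mk, sm_apply]
    split_ifs with h
    · rw [h.1, h.2]; exact H
    · exact zero_mem _

lemma zero (j v : ℤ) : Rp j v (0 : Alg K) 0 := by
  obtain ⟨a, ha⟩ := Rp_ex (K := K) (j := j) (v := v) (zero_mem _)
  rwa [ha.zero_iff.2 (zero_mem _)] at ha

lemma eq_iff (h : Rp j v a x) (h' : Rp j v b y) : a = b ↔ x - y ∈ Kk K j v := by
  rw [← sub_eq_zero, (h.sub h').zero_iff]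

end Rp

lemma mul_out {i j v : ℤ} {x y : C K} (hx : x ∈ Gs K (i - j) 0) (hy : y ∈ Gs K (j - v) 0)
    (hj : j < 0 ∨ 6 < j) : x * y ∈ Kk K i v :=
  Gs_mul' (Gs_mono (s' := max 0 (j - i)) hx rfl (by omega))
    (Gs_mono (s' := max 0 (v - j)) hy rfl (by omega)) (by ring) (by omega)

lemma Rp_prod {i j v : ℤ} {x y : C K} (hx : x ∈ Gs K (i - j) 0) (hy : y ∈ Gs K (j - v) 0)
    (p q : At K) (h1 : ∀ a b m, zz m ≠ j → val K p a m * val K q m b = 0)
    (h2 : ∀ a b m, zz m = j → val K p a m * val K q m b = sm i v (x * y) a b) :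
    Rp i v (mkA K p * mkA K q) (x * y) := by
  have hxy : x * y ∈ Gs K (i - v) 0 := Gs_mul' hx hy (by ring) (by omega)
  by_cases hj : j < 0 ∨ 6 < j
  · have : p * q = 0 := by
      apply val_inj
      ext a b
      rw [map_mul, map_zero, Matrix.mul_apply, Matrix.zero_apply]
      exact sum_eq_zero fun m _ => h1 a b m (by have := zz_bd m; omega)
    rw [← map_mul, this, map_zero]
    obtain ⟨c, hc⟩ := Rp_ex hxy
    rwa [hc.zero_iff.2 (mul_out hx hy hj)] at hc
  · obtain ⟨m, rfl⟩ := zz_ex hj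
    refine ⟨hxy, ?_⟩
    rw [← map_mul]
    congr 1
    apply val_inj
    ext a b
    rw [map_mul, Matrix.mul_apply, val_mk, sum_eq_single m
      (fun m' _ hm => h1 a b m' (fun h => hm (zz_inj.1 h))) (by simp), h2 a b m rfl]

lemma Rp.mul {i j v : ℤ} {a b : Alg K} {x y : C K} (h : Rp i j a x) (h' : Rp j v b y) :
    Rp i v (a * b) (x * y) := by
  obtain ⟨h, rfl⟩ := h
  obtain ⟨h', rfl⟩ := h'
  refine Rp_prod h h' _ _ (fun a b m hm => ?_) (fun a b m hm => ?_)
  · simp [val_mk, sm_apply, hm]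
  · simp only [val_mk, sm_apply, hm, and_true, true_and]
    by_cases h1 : zz a = i <;> by_cases h2 : zz b = v <;> simp [h1, h2]

/-- a constant diagonal -/
noncomputable def bm (d : ℤ) (x : C K) : Matrix (Fin 7) (Fin 7) (C K) :=
  Matrix.of fun a b => if zz a - zz b = d then x else 0

lemma bm_apply (d : ℤ) (x : C K) (a b : Fin 7) :
    bm d x a b = if zz a - zz b = d then x else 0 := rfl

lemma bm_mem {d : ℤ} {x : C K} (hx : x ∈ Gs K d 0) (a b : Fin 7) :
    bm d x a b ∈ Gs K (zz a - zz b) 0 := by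
  rw [bm_apply]
  split_ifs with h
  · rw [h]; exact hx
  · exact zero_mem _

/-- image of a homogeneous element -/
noncomputable def bar {d : ℤ} {x : C K} (hx : x ∈ Gs K d 0) : Alg K :=
  mkA K (mkAt (bm d x) (bm_mem hx))

lemma Rp.mul_bar {j v w d : ℤ} {a : Alg K} {x y : C K} (h : Rp j v a x) (hy : y ∈ Gs K d 0)
    (hw : v - w = d) : Rp j w (a * bar hy) (x * y) := by
  obtain ⟨h, rfl⟩ := h
  refine Rp_prod h (hw ▸ hy) _ _ (fun a b m hm => ?_) (fun a b m hm => ?_)
  · simp [val_mk, sm_apply, hm]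
  · simp only [val_mk, sm_apply, bm_apply, hm, and_true]
    have : v - zz b = d ↔ zz b = w := by omega
    by_cases h1 : zz a = j <;> by_cases h2 : zz b = w <;> simp [h1, h2, this, hw]

lemma Rp.bar_mul {j v w d : ℤ} {a : Alg K} {x y : C K} (h : Rp j v a x) (hy : y ∈ Gs K d 0)
    (hw : w - j = d) : Rp w v (bar hy * a) (y * x) := by
  obtain ⟨h, rfl⟩ := h
  refine Rp_prod (hw ▸ hy) h _ _ (fun a b m hm => ?_) (fun a b m hm => ?_)
  · simp [val_mk, sm_apply, hm]
  · simp only [val_mk, sm_apply, bm_apply, hm, true_and]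
    have : zz a - j = d ↔ zz a = w := by omega
    by_cases h1 : zz a = w <;> by_cases h2 : zz b = v <;> simp [h1, h2, this, hw]

lemma one_mem' (v : ℤ) : (1 : C K) ∈ Gs K (v - v) 0 := Gs_mono one_mem (by ring) (by omega)

variable (K) in
/-- the idempotents -/
noncomputable def ee (v : ℤ) : Alg K := mkA K (mkAt (sm v v 1) (sm_mem (one_mem' v)))

lemma Rp_ee (v : ℤ) : Rp v v (ee K v) 1 := ⟨one_mem' v, rfl⟩

lemma Rp.left {j v : ℤ} {a : Alg K} {x : C K} (h : Rp j v a x) : ee K j * a = a :=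
  ((Rp_ee j).mul h).uniq (by rwa [one_mul])

lemma Rp.right {j v : ℤ} {a : Alg K} {x : C K} (h : Rp j v a x) : a * ee K v = a :=
  (h.mul (Rp_ee v)).uniq (by rwa [mul_one])

lemma ee_sq (v : ℤ) : ee K v * ee K v = ee K v := (Rp_ee v).left

lemma ee_out {v : ℤ} (h : v < 0 ∨ 6 < v) : ee K v = 0 :=
  (Rp_ee v).zero_iff.2 (Gs_to (one_mem' v) rfl (by omega))

lemma ee_bar {d v w : ℤ} {y : C K} (hy : y ∈ Gs K d 0) (hw : w - v = d) :
    ee K w * bar hy = bar hy * ee K v :=
  ((Rp_ee w).mul_bar hy hw).uniq (by simpa using (Rp_ee v).bar_mul hy hw)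

lemma sum_ee : ∑ v : Fin 7, ee K (zz v) = 1 := by
  simp only [ee]
  rw [← map_sum, ← map_one (mkA K)]
  congr 1
  apply val_inj
  ext a b
  rw [map_sum, map_one, Matrix.sum_apply]
  simp only [val_mk, sm_apply, zz_inj, Matrix.one_apply]
  by_cases h : a = b
  · subst h; simp
  · rw [if_neg h]
    exact sum_eq_zero fun m _ => if_neg fun hm => h (hm.1.trans hm.2.symm)

lemma Rp_sandwich (a : Alg K) (j v : ℤ) : ∃ x, Rp j v (ee K j * a * ee K v) x := by
  by_cases hj : j < 0 ∨ 6 < j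
  · exact ⟨0, by simpa [ee_out hj] using Rp.zero j v⟩
  by_cases hv : v < 0 ∨ 6 < v
  · exact ⟨0, by simpa [ee_out hv] using Rp.zero j v⟩
  obtain ⟨j, rfl⟩ := zz_ex hj
  obtain ⟨v, rfl⟩ := zz_ex hv
  obtain ⟨b, rfl⟩ := mkA_surj a
  refine ⟨val K b j v, val_mem b j v, ?_⟩
  simp only [ee, ← map_mul]
  congr 1
  apply val_inj
  ext c d
  simp only [map_mul, val_mk, Matrix.mul_apply, sm_apply, zz_inj]
  by_cases h1 : c = j <;> by_cases h2 : d = v <;> simp [h1, h2]

lemma Rp_of {a : Alg K} {j v : ℤ} (h1 : ee K j * a = a) (h2 : a * ee K v = a) : ∃ x, Rp j v a x := by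
  have := Rp_sandwich a j v
  rwa [h1, h2] at this

lemma g_mem (k : Fin 6) : gg K k ∈ Gs K (deg (some k)) 0 :=
  Gs_mono (gen_mem (some k)) rfl (by omega)

variable (K)
/-- generators in the algebra -/
noncomputable def gA (k : Fin 6) : Alg K := bar (g_mem k)
/-- tau in the algebra -/
noncomputable def tA : Alg K := bar (tau_mem (K := K))
/-- the cubic class in the algebra -/
noncomputable def eA : Alg K := bar (eps_mem (K := K))
variable {K}

lemma deg_vals : deg (some 0) = 1 ∧ deg (some 1) = 1 ∧ deg (some 2) = 1 ∧ deg (some 3) = -1 ∧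
    deg (some 4) = -1 ∧ deg (some 5) = -1 := by decide

lemma Rp_DR {J n : ℤ} {x : ℤ → ℤ → ℤ → Alg K} {f : ℤ → ℤ → ℤ → C K}
    (h : ∀ i j k, Rp J (n - 2 * (i + j + k)) (x i j k) (f i j k)) (i j k : ℤ) :
    Rp J (n - 1 - 2 * (i + j + k)) (DR (gA K) (tA K) (eA K) x i j k) (DRC f i j k) := by
  have d := deg_vals
  unfold DRC DR gA tA eA
  exact ((((((((h i j k).mul_bar _ (by omega)).sub
    (((h i j k).mul_bar _ (by omega)).zsmul _)).sub
    (((h (i + 1) (j - 1) k).mul_bar _ (by omega)).zsmul _)).sub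
    (((h (i - 1) (j + 1) k).mul_bar _ (by omega)).zsmul _)).add
    (((h (i + 1) j k).mul_bar _ (by omega)).zsmul _)).add
    (((h i (j + 1) k).mul_bar _ (by omega)).zsmul _)).add
    (((h i j (k + 1)).mul_bar _ (by omega)).zsmul _)).sub
    ((h i j (k - 1)).mul_bar _ (by omega))

lemma Rp_DL {J n : ℤ} {x : ℤ → ℤ → ℤ → Alg K} {f : ℤ → ℤ → ℤ → C K}
    (h : ∀ i j k, Rp (n - 2 * (i + j + k)) J (x i j k) (f i j k)) (i j k : ℤ) :
    Rp (n + 1 - 2 * (i + j + k)) J (DL (gA K) (tA K) (eA K) x i j k) (DLC f i j k) := by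
  have d := deg_vals
  unfold DLC DL gA tA eA
  simp only [smul_eq_mul]
  exact ((((((((h i j k).bar_mul _ (by omega)).sub
    (((h i j k).bar_mul _ (by omega)).zsmul _)).sub
    (((h (i - 1) (j + 1) k).bar_mul _ (by omega)).zsmul _)).sub
    (((h (i + 1) (j - 1) k).bar_mul _ (by omega)).zsmul _)).add
    (((h (i - 1) j k).bar_mul _ (by omega)).zsmul _)).add
    (((h i (j - 1) k).bar_mul _ (by omega)).zsmul _)).add
    (((h i j (k - 1)).bar_mul _ (by omega)).zsmul _)).sub
    ((h i j (k + 1)).bar_mul _ (by omega))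

end Vale.Agent.P195
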