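import Vale.Agent.P195.Rep

/-! The Casimir homotopy. -/

namespace Vale.Agent.P195

variable {K : Type} [Field K]

/-- multiplication by the cubic class -/
def le (m : W K) : W K := ![0, 0, 0, 0, 0, 0, 0, m 0]
/-- contraction -/
def ia (m : W K) : W K := ![m 1, 0, m 4, m 5, 0, 0, m 7, 0]
/-- contraction -/
def ib (m : W K) : W K := ![m 2, -m 4, 0, m 6, 0, -m 7, 0, 0]
/-- contraction -/
def ic (m : W K) : W K := ![m 3, -m 5, -m 6, 0, m 7, 0, 0, 0]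

lemma i_vals (m : W K) :
    (le m 0 = 0 ∧ le m 1 = 0 ∧ le m 2 = 0 ∧ le m 3 = 0 ∧ le m 4 = 0 ∧
      le m 5 = 0 ∧ le m 6 = 0 ∧ le m 7 = m 0) ∧
    (ia m 0 = m 1 ∧ ia m 1 = 0 ∧ ia m 2 = m 4 ∧ ia m 3 = m 5 ∧ ia m 4 = 0 ∧
      ia m 5 = 0 ∧ ia m 6 = m 7 ∧ ia m 7 = 0) ∧
    (ib m 0 = m 2 ∧ ib m 1 = -m 4 ∧ ib m 2 = 0 ∧ ib m 3 = m 6 ∧ ib m 4 = 0 ∧
      ib m 5 = -m 7 ∧ ib m 6 = 0 ∧ ib m 7 = 0) ∧
    (ic m 0 = m 3 ∧ ic m 1 = -m 5 ∧ ic m 2 = -m 6 ∧ ic m 3 = 0 ∧ ic m 4 = m 7 ∧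
      ic m 5 = 0 ∧ ic m 6 = 0 ∧ ic m 7 = 0) :=
  ⟨⟨rfl, rfl, rfl, rfl, rfl, rfl, rfl, rfl⟩, ⟨rfl, rfl, rfl, rfl, rfl, rfl, rfl, rfl⟩,
    ⟨rfl, rfl, rfl, rfl, rfl, rfl, rfl, rfl⟩, ⟨rfl, rfl, rfl, rfl, rfl, rfl, rfl, rfl⟩⟩

lemma lam_eps (m : W K) : lam K (eps K) m = le m := by
  apply W_ext <;> simp [eps, lam_g, lg_vals, l_vals, i_vals]

/-- the Lie algebra cohomology differential -/
def d0 (y : ℤ → ℤ → ℤ → W K) (i j k : ℤ) : W K :=
  lt K (y i j k) - (i - j) • lc K (y i j k) - i • la K (y (i - 1) (j + 1) k) -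
    j • lb K (y (i + 1) (j - 1) k)

/-- the homotopy -/
def hW (y : ℤ → ℤ → ℤ → W K) (i j k : ℤ) : W K :=
  -((i - j) • ic (y i j k) + (2 * j) • ia (y (i + 1) (j - 1) k) +
    (2 * i) • ib (y (i - 1) (j + 1) k))

lemma zs_apply (n : ℤ) (m : W K) (s : Fin 8) : (n • m) s = (n : K) * m s := by
  rw [Pi.smul_apply, zsmul_eq_mul]

lemma casimir (y : ℤ → ℤ → ℤ → W K) (i j k : ℤ) :
    d0 (hW y) i j k + hW (d0 y) i j k = ((i + j) * (i + j + 2)) • y i j k := by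
  apply W_ext <;>
  simp only [d0, hW, l_vals, i_vals, Pi.add_apply, Pi.sub_apply, Pi.neg_apply, zs_apply,
    sub_add_cancel, add_sub_cancel_right] <;> push_cast <;> ring

/-- inverse eigenvalue -/
noncomputable def mu (K : Type) [Field K] (a : ℤ) : K := ((a * (a + 2) : ℤ) : K)⁻¹

lemma d0_comb (y z w : ℤ → ℤ → ℤ → W K) (i j k : ℤ) :
    d0 (fun i j k => mu K (i + j) • y i j k + mu K (i + j) • z i j k + w i j k) i j k =
      mu K (i + j) • d0 y i j k + mu K (i + j) • d0 z i j k + d0 w i j k := by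
  have e1 : i - 1 + (j + 1) = i + j := by ring
  have e2 : i + 1 + (j - 1) = i + j := by ring
  simp only [d0, e1, e2, map_add, map_smul]
  module

lemma mu_mul [CharZero K] {a : ℤ} (ha : 1 ≤ a) (m : W K) : mu K a • (a * (a + 2)) • m = m := by
  have : ((a * (a + 2) : ℤ) : K) ≠ 0 := by
    exact_mod_cast (mul_pos (by omega) (by omega)).ne'
  rw [← Int.cast_smul_eq_zsmul K, smul_smul, mu, inv_mul_cancel₀ this, one_smul]

theorem FE_W [CharZero K] (y : ℤ → ℤ → ℤ → W K) (h0 : y 0 0 0 0 = 0)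
    (hD : ∀ i j k, pos i j k → d0 y i j k - le (y i j (k + 1)) = 0) :
    ∃ z : ℤ → ℤ → ℤ → W K, ∀ i j k, pos i j k → d0 z i j k - le (z i j (k + 1)) = y i j k := by
  have hz : ∀ i j k, pos i j k → y i j k 0 = 0 := by
    rintro i j k ⟨hi, hj, hk⟩
    by_cases hj1 : 1 ≤ j
    · have := congrFun (hD (i + 1) (j - 1) k ⟨by omega, by omega, hk⟩) 1
      have h : ((i : K) + 1) ≠ 0 := by exact_mod_cast (show i + 1 ≠ 0 by omega)
      simpa [d0, l_vals, i_vals, h] using this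
    by_cases hi1 : 1 ≤ i
    · have := congrFun (hD (i - 1) (j + 1) k ⟨by omega, by omega, hk⟩) 2
      have h : ((j : K) + 1) ≠ 0 := by exact_mod_cast (show j + 1 ≠ 0 by omega)
      simpa [d0, l_vals, i_vals, h] using this
    obtain rfl : i = 0 := by omega
    obtain rfl : j = 0 := by omega
    by_cases hk1 : k = 0
    · rw [hk1, h0]
    · have := congrFun (hD 0 0 (k - 1) ⟨le_rfl, le_rfl, by omega⟩) 7
      simpa [d0, l_vals, i_vals] using this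
  have hd : ∀ i j k, pos i j k → d0 y i j k = 0 := by
    rintro i j k ⟨hi, hj, hk⟩
    rw [sub_eq_zero.1 (hD i j k ⟨hi, hj, hk⟩)]
    apply W_ext <;> simp [i_vals, hz i j (k + 1) ⟨hi, hj, by omega⟩]
  have hh : ∀ i j k, pos i j k → hW (d0 y) i j k = 0 := by
    rintro i j k ⟨hi, hj, hk⟩
    have z1 : ia (0 : W K) = 0 := by apply W_ext <;> simp [i_vals]
    have z2 : ib (0 : W K) = 0 := by apply W_ext <;> simp [i_vals]
    have z3 : ic (0 : W K) = 0 := by apply W_ext <;> simp [i_vals]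
    have e1 : (2 * j) • ia (d0 y (i + 1) (j - 1) k) = 0 := by
      by_cases h : j = 0
      · simp [h]
      · rw [hd _ _ _ ⟨by omega, by omega, hk⟩, z1, smul_zero]
    have e2 : (2 * i) • ib (d0 y (i - 1) (j + 1) k) = 0 := by
      by_cases h : i = 0
      · simp [h]
      · rw [hd _ _ _ ⟨by omega, by omega, hk⟩, z2, smul_zero]
    rw [hW, e1, e2, hd i j k ⟨hi, hj, hk⟩, z3]
    simp
  let u : ℤ → ℤ → ℤ → W K := fun i j k => le (mu K (i + j) • hW y i j (k + 1))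
  have hu : d0 u = 0 := by
    ext1 i; ext1 j; ext1 k
    apply W_ext <;> simp [d0, u, l_vals, i_vals]
  let w : ℤ → ℤ → ℤ → W K := fun i j k => if i + j = 0 then
    ![-y 0 0 (k - 1) 7, -y 0 0 k 5 / 2, y 0 0 k 6 / 2, y 0 0 k 4, 0, 0, 0, 0] else 0
  refine ⟨fun i j k => mu K (i + j) • hW y i j k + mu K (i + j) • hW u i j k + w i j k, ?_⟩
  rintro i j k ⟨hi, hj, hk⟩
  rw [d0_comb]
  by_cases ha : i + j = 0
  · obtain rfl : i = 0 := by omega
    obtain rfl : j = 0 := by omega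
    have hm : mu K (0 + 0) = 0 := by simp [mu]
    have h1 := hd 0 0 k ⟨hi, hj, hk⟩
    have h4 := congrFun h1 4
    have h5 := congrFun h1 5
    have h6 := congrFun h1 6
    have h7 := hz 0 0 k ⟨hi, hj, hk⟩
    simp [d0, l_vals] at h4 h5 h6
    simp only [hm, zero_smul]
    apply W_ext <;> simp [d0, w, l_vals, i_vals, h4, h5, h6, h7] <;> field_simp
  · have c1 := casimir y i j k
    have c2 := casimir u i j k
    rw [hh i j k ⟨hi, hj, hk⟩, add_zero] at c1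
    have hw0 : hW (0 : ℤ → ℤ → ℤ → W K) i j k = 0 := by
      apply W_ext <;> simp [hW, i_vals]
    rw [hu, hw0, add_zero] at c2
    have e1 : i - 1 + (j + 1) ≠ 0 := by omega
    have e2 : i + 1 + (j - 1) ≠ 0 := by omega
    have hw : d0 w i j k = 0 := by simp [d0, w, ha, e1, e2]
    rw [c1, c2, mu_mul (by omega), mu_mul (by omega), hw]
    apply W_ext <;> simp [u, w, ha, i_vals, hW]

end Vale.Agent.P195
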