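import Mathlib

/-! The curved algebra C and its filtration. -/

namespace Vale.Agent.P195

open Finset

/-- generators -/
abbrev Gen := Option (Fin 6)

/-- the differential on generators -/
def dg {R : Type} [Ring R] (g : Fin 6 → R) : Fin 6 → R :=
  ![g 2 * g 0 - g 0 * g 2, g 1 * g 2 - g 2 * g 1, g 0 * g 1, g 2 * g 3 + g 0 * g 4,
    g 1 * g 3 - g 2 * g 4, 0]

variable (K : Type) [Field K]

/-- defining relations -/
inductive Rel : FreeAlgebra K Gen → FreeAlgebra K Gen → Prop
  | anti (k l : Fin 6) : Rel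
      (FreeAlgebra.ι K (some k) * FreeAlgebra.ι K (some l) +
        FreeAlgebra.ι K (some l) * FreeAlgebra.ι K (some k)) 0
  | sq (k : Fin 6) : Rel (FreeAlgebra.ι K (some k) * FreeAlgebra.ι K (some k)) 0
  | mc (k : Fin 6) : Rel
      (FreeAlgebra.ι K none * FreeAlgebra.ι K (some k) +
        FreeAlgebra.ι K (some k) * FreeAlgebra.ι K none)
      (dg (fun l => FreeAlgebra.ι K (some l)) k)
  | tt : Rel (FreeAlgebra.ι K none * FreeAlgebra.ι K none)
      (FreeAlgebra.ι K (some 0) * FreeAlgebra.ι K (some 1) * FreeAlgebra.ι K (some 2) *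
        FreeAlgebra.ι K (some 5))

/-- the algebra C -/
def C : Type := RingQuot (Rel K)

noncomputable instance : Ring (C K) := inferInstanceAs (Ring (RingQuot (Rel K)))
noncomputable instance : Algebra K (C K) := inferInstanceAs (Algebra K (RingQuot (Rel K)))

/-- quotient map -/
noncomputable def mkC : FreeAlgebra K Gen →ₐ[K] C K := RingQuot.mkAlgHom K (Rel K)

/-- generators in C -/
noncomputable def gen (x : Gen) : C K := mkC K (FreeAlgebra.ι K x)

/-- odd generators -/
noncomputable def gg (k : Fin 6) : C K := gen K (some k)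

/-- generator tau -/
noncomputable def tau : C K := gen K none

/-- the cubic class -/
noncomputable def eps : C K := gg K 0 * gg K 1 * gg K 2

/-- the relations in a ring -/
structure Rels {R : Type} [Ring R] (g : Fin 6 → R) (t : R) : Prop where
  anti : ∀ k l, g k * g l + g l * g k = 0
  sq : ∀ k, g k * g k = 0
  mc : ∀ k, t * g k + g k * t = dg g k
  tt : t * t = g 0 * g 1 * g 2 * g 5

lemma map_dg {R S : Type} [Ring R] [Ring S] [Algebra K R] [Algebra K S] (f : R →ₐ[K] S)
    (g : Fin 6 → R) (k : Fin 6) : f (dg g k) = dg (fun l => f (g l)) k := by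
  fin_cases k <;> simp [dg]

lemma mkC_rel {a b : FreeAlgebra K Gen} (h : Rel K a b) : mkC K a = mkC K b :=
  RingQuot.mkAlgHom_rel K h

lemma relsC : Rels (gg K) (tau K) where
  anti k l := by simpa [gg, gen] using mkC_rel K (Rel.anti (K := K) k l)
  sq k := by simpa [gg, gen] using mkC_rel K (Rel.sq (K := K) k)
  mc k := by
    have := mkC_rel K (Rel.mc (K := K) k)
    rw [map_dg, map_add, map_mul, map_mul] at this
    exact this
  tt := by simpa [gg, tau, gen] using mkC_rel K (Rel.tt (K := K))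

variable {K}

/-- universal property -/
noncomputable def liftC {R : Type} [Ring R] [Algebra K R] {g : Fin 6 → R} {t : R}
    (h : Rels g t) : C K →ₐ[K] R :=
  RingQuot.liftAlgHom K ⟨FreeAlgebra.lift K (fun x : Gen => x.elim t g), by
    intro a b hab
    cases hab with
    | anti k l => simpa using h.anti k l
    | sq k => simpa using h.sq k
    | mc k => rw [map_dg]; simpa using h.mc k
    | tt => simpa using h.tt⟩

lemma liftC_g {R : Type} [Ring R] [Algebra K R] {g : Fin 6 → R} {t : R}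
    (h : Rels g t) (k : Fin 6) : liftC (K := K) h (gg K k) = g k := by
  unfold liftC gg gen mkC
  erw [RingQuot.liftAlgHom_mkAlgHom_apply]
  simp

lemma liftC_tau {R : Type} [Ring R] [Algebra K R] {g : Fin 6 → R} {t : R}
    (h : Rels g t) : liftC (K := K) h (tau K) = t := by
  unfold liftC tau gen mkC
  erw [RingQuot.liftAlgHom_mkAlgHom_apply]
  simp

/-- words -/
noncomputable def wd (l : List Gen) : C K := (l.map (gen K)).prod

lemma wd_nil : wd (K := K) [] = 1 := by simp [wd]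
lemma wd_cons (x : Gen) (l : List Gen) : wd (K := K) (x :: l) = gen K x * wd l := by simp [wd]
lemma wd_append (l l' : List Gen) : wd (K := K) (l ++ l') = wd l * wd l' := by simp [wd]
lemma wd_concat (l : List Gen) (x : Gen) : wd (K := K) (l ++ [x]) = wd l * gen K x := by simp [wd]

lemma mem_span_wd (y : C K) : y ∈ Submodule.span K (Set.range (wd (K := K))) := by
  obtain ⟨a, rfl⟩ := RingQuot.mkAlgHom_surjective K (Rel K) y
  change mkC K a ∈ _
  induction a using FreeAlgebra.induction with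
  | grade0 r =>
    rw [AlgHom.commutes, Algebra.algebraMap_eq_smul_one]
    exact Submodule.smul_mem _ _ (Submodule.subset_span ⟨[], wd_nil⟩)
  | grade1 g => exact Submodule.subset_span ⟨[g], by simp [wd, gen]⟩
  | mul a b ha hb =>
    rw [map_mul]
    have := Submodule.mul_mem_mul ha hb
    rw [Submodule.span_mul_span] at this
    refine Submodule.span_mono ?_ this
    rintro _ ⟨_, ⟨l, rfl⟩, _, ⟨l', rfl⟩, rfl⟩
    exact ⟨l ++ l', wd_append l l'⟩
  | add a b ha hb => rw [map_add]; exact add_mem ha hb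

/-- degree of a generator -/
def deg : Gen → ℤ
  | none => 1
  | some k => if (k : ℕ) < 3 then 1 else -1

/-- weight of a generator -/
def wt : Gen → ℤ
  | none => 0
  | some k => if (k : ℕ) < 3 then 0 else 1

/-- degree of a word -/
def dgl (l : List Gen) : ℤ := (l.map deg).sum
/-- weight of a word -/
def wtl (l : List Gen) : ℤ := (l.map wt).sum

lemma dgl_nil : dgl [] = 0 := rfl
lemma wtl_nil : wtl [] = 0 := rfl
lemma dgl_cons (x : Gen) (l : List Gen) : dgl (x :: l) = deg x + dgl l := by simp [dgl]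
lemma wtl_cons (x : Gen) (l : List Gen) : wtl (x :: l) = wt x + wtl l := by simp [wtl]
lemma dgl_append (l l' : List Gen) : dgl (l ++ l') = dgl l + dgl l' := by simp [dgl]
lemma wtl_append (l l' : List Gen) : wtl (l ++ l') = wtl l + wtl l' := by simp [wtl]
lemma dgl_concat (l : List Gen) (x : Gen) : dgl (l ++ [x]) = dgl l + deg x := by simp [dgl]
lemma wtl_concat (l : List Gen) (x : Gen) : wtl (l ++ [x]) = wtl l + wt x := by simp [wtl]

lemma wt_nonneg (x : Gen) : 0 ≤ wt x ∧ 0 ≤ deg x + wt x := by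
  rcases x with _ | k
  · simp [wt, deg]
  · simp only [wt, deg]; split_ifs <;> simp

lemma wtl_nonneg (l : List Gen) : 0 ≤ wtl l ∧ 0 ≤ dgl l + wtl l := by
  induction l with
  | nil => simp [dgl_nil, wtl_nil]
  | cons x l ih =>
    have := wt_nonneg x
    rw [dgl_cons, wtl_cons]; omega

variable (K) in
/-- degree d, weight at least s -/
noncomputable def Gs (d s : ℤ) : Submodule K (C K) :=
  Submodule.span K {x | ∃ l, x = wd l ∧ dgl l = d ∧ s ≤ wtl l}

lemma wd_mem (l : List Gen) {d s : ℤ} (hd : dgl l = d) (hs : s ≤ wtl l) : wd l ∈ Gs K d s :=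
  Submodule.subset_span ⟨l, rfl, hd, hs⟩

lemma Gs_ind {N : Type} [AddCommGroup N] [Module K N] (φ : C K →ₗ[K] N) (T : Submodule K N)
    {d s : ℤ} (h : ∀ l, dgl l = d → s ≤ wtl l → φ (wd l) ∈ T) {x : C K} (hx : x ∈ Gs K d s) :
    φ x ∈ T := by
  have : Gs K d s ≤ T.comap φ := by
    rw [Gs, Submodule.span_le]
    rintro _ ⟨l, rfl, h1, h2⟩
    exact h l h1 h2
  exact this hx

lemma Gs_mono {d d' s s' : ℤ} {x : C K} (hx : x ∈ Gs K d s) (hd : d = d')
    (h : s' ≤ s ∨ s' ≤ 0 ∨ s' ≤ -d) : x ∈ Gs K d' s' := by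
  refine Gs_ind LinearMap.id _ (fun l h1 h2 => wd_mem l (h1.trans hd) ?_) hx
  have := wtl_nonneg l
  omega

lemma Gs_mul {d d' s s' : ℤ} {x y : C K} (hx : x ∈ Gs K d s) (hy : y ∈ Gs K d' s') :
    x * y ∈ Gs K (d + d') (s + s') := by
  refine Gs_ind (LinearMap.mulRight K y) _ (fun l h1 h2 => ?_) hx
  refine Gs_ind (LinearMap.mulLeft K (wd l)) _ (fun l' h3 h4 => ?_) hy
  rw [LinearMap.mulLeft_apply, ← wd_append]
  exact wd_mem _ (by rw [dgl_append, h1, h3]) (by rw [wtl_append]; omega)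

lemma Gs_mul' {d d' s s' e u : ℤ} {x y : C K} (hx : x ∈ Gs K d s) (hy : y ∈ Gs K d' s')
    (he : d + d' = e) (hu : u ≤ s + s') : x * y ∈ Gs K e u :=
  Gs_mono (Gs_mul hx hy) he (Or.inl hu)

lemma one_mem : (1 : C K) ∈ Gs K 0 0 := wd_nil (K := K) ▸ wd_mem [] rfl le_rfl

lemma gen_mem (x : Gen) : gen K x ∈ Gs K (deg x) (wt x) := by
  have := wd_mem (K := K) [x] (d := deg x) (s := wt x) (by simp [dgl]) (by simp [wtl])
  simpa [wd] using this

lemma tau_mem : tau K ∈ Gs K 1 0 := gen_mem none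
lemma g0_mem : gg K 0 ∈ Gs K 1 0 := gen_mem (some 0)
lemma g1_mem : gg K 1 ∈ Gs K 1 0 := gen_mem (some 1)
lemma g2_mem : gg K 2 ∈ Gs K 1 0 := gen_mem (some 2)
lemma g3_mem : gg K 3 ∈ Gs K (-1) 1 := gen_mem (some 3)
lemma g4_mem : gg K 4 ∈ Gs K (-1) 1 := gen_mem (some 4)
lemma g5_mem : gg K 5 ∈ Gs K (-1) 1 := gen_mem (some 5)
lemma eps_mem : eps K ∈ Gs K 3 0 :=
  Gs_mul' (Gs_mul g0_mem g1_mem) g2_mem (by norm_num) (by norm_num)

/-- product of a list of odd generators -/
noncomputable def pr (l : List (Fin 6)) : C K := (l.map (gg K)).prod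

lemma pr_cons (a : Fin 6) (l : List (Fin 6)) : pr (K := K) (a :: l) = gg K a * pr l := by
  simp [pr]

lemma pr_append (l l' : List (Fin 6)) : pr (K := K) (l ++ l') = pr l * pr l' := by simp [pr]

lemma g_pr (a : Fin 6) (l : List (Fin 6)) (h : a ∈ l) : gg K a * pr l = 0 := by
  induction l with
  | nil => simp at h
  | cons b l ih =>
    rw [pr_cons, ← mul_assoc]
    rcases List.mem_cons.1 h with rfl | h
    · rw [(relsC K).sq, zero_mul]
    · rw [eq_neg_of_add_eq_zero_left ((relsC K).anti a b), neg_mul, mul_assoc, ih h]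
      simp

lemma pr_eq_zero (l : List (Fin 6)) (h : ¬ l.Nodup) : pr (K := K) l = 0 := by
  induction l with
  | nil => simp at h
  | cons b l ih =>
    rw [pr_cons]
    by_cases hb : b ∈ l
    · exact g_pr b l hb
    · rw [ih (fun hl => h (List.nodup_cons.2 ⟨hb, hl⟩)), mul_zero]

/-- number of positive letters -/
def c1 (l : List (Fin 6)) : ℤ := (l.map (fun k : Fin 6 => if (k : ℕ) < 3 then (1 : ℤ) else 0)).sum
/-- number of negative letters -/
def c2 (l : List (Fin 6)) : ℤ := (l.map (fun k : Fin 6 => if (k : ℕ) < 3 then (0 : ℤ) else 1)).sum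

lemma c_le {l : List (Fin 6)} (h : l.Nodup) : c1 l ≤ 3 ∧ c2 l ≤ 3 := by
  constructor
  · rw [c1, ← List.sum_toFinset _ h]
    refine (Finset.sum_le_sum_of_subset_of_nonneg (Finset.subset_univ _)
      (fun i _ _ => by split_ifs <;> simp)).trans (by decide)
  · rw [c2, ← List.sum_toFinset _ h]
    refine (Finset.sum_le_sum_of_subset_of_nonneg (Finset.subset_univ _)
      (fun i _ _ => by split_ifs <;> simp)).trans (by decide)

variable (K) in
/-- exterior part -/
noncomputable def Lx (n r : ℤ) : Submodule K (C K) :=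
  Submodule.span K {y | ∃ l : List (Fin 6), y = pr l ∧ n ≤ c1 l ∧ r ≤ c2 l}

lemma pr_mem (l : List (Fin 6)) {n r : ℤ} (h1 : n ≤ c1 l) (h2 : r ≤ c2 l) : pr l ∈ Lx K n r :=
  Submodule.subset_span ⟨l, rfl, h1, h2⟩

lemma Lx_ind {N : Type} [AddCommGroup N] [Module K N] (φ : C K →ₗ[K] N) (T : Submodule K N)
    {n r : ℤ} (h : ∀ l, n ≤ c1 l → r ≤ c2 l → φ (pr l) ∈ T) {x : C K} (hx : x ∈ Lx K n r) :
    φ x ∈ T := by
  have : Lx K n r ≤ T.comap φ := by
    rw [Lx, Submodule.span_le]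
    rintro _ ⟨l, rfl, h1, h2⟩
    exact h l h1 h2
  exact this hx

lemma Lx_big {n r : ℤ} (hn : 4 ≤ n ∨ 4 ≤ r) {y : C K} (hy : y ∈ Lx K n r) : y = 0 := by
  refine Lx_ind LinearMap.id ⊥ (fun l h1 h2 => ?_) hy
  have : ¬ l.Nodup := fun h => by have := c_le h; omega
  simp [pr_eq_zero l this]

lemma Lx_mul {n r n' r' m s : ℤ} {x y : C K} (hx : x ∈ Lx K n r) (hy : y ∈ Lx K n' r')
    (hm : m ≤ n + n') (hs : s ≤ r + r') : x * y ∈ Lx K m s := by
  refine Lx_ind (LinearMap.mulRight K y) _ (fun l h1 h2 => ?_) hx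
  refine Lx_ind (LinearMap.mulLeft K (pr l)) _ (fun l' h3 h4 => ?_) hy
  rw [LinearMap.mulLeft_apply, ← pr_append]
  refine pr_mem _ ?_ ?_
  · simp only [c1, List.map_append, List.sum_append] at *; omega
  · simp only [c2, List.map_append, List.sum_append] at *; omega

lemma Lx_mono {n r m s : ℤ} {x : C K} (hx : x ∈ Lx K n r) (hm : m ≤ n) (hs : s ≤ r) :
    x ∈ Lx K m s :=
  Lx_ind LinearMap.id _ (fun l h1 h2 => pr_mem l (by omega) (by omega)) hx

lemma g_Lx (k : Fin 6) : gg K k ∈ Lx K (c1 [k]) (c2 [k]) := by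
  have := pr_mem (K := K) [k] le_rfl le_rfl
  simpa [pr] using this

lemma dg_Lx (k : Fin 6) : dg (gg K) k ∈ Lx K (c1 [k] + 1) (c2 [k]) := by
  have h := fun a b : Fin 6 => Lx_mul (K := K) (g_Lx a) (g_Lx b) le_rfl le_rfl
  fin_cases k
  · exact sub_mem (h 2 0) (h 0 2)
  · exact sub_mem (h 1 2) (h 2 1)
  · exact h 0 1
  · exact add_mem (h 2 3) (h 0 4)
  · exact sub_mem (h 1 3) (h 2 4)
  · exact zero_mem _

variable (K) in
/-- normal forms -/
noncomputable def NF (n r : ℤ) : Submodule K (C K) :=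
  Lx K n r ⊔ (Lx K (n - 1) r).map (LinearMap.mulRight K (tau K))

lemma mem_NF {n r : ℤ} {x : C K} :
    x ∈ NF K n r ↔ ∃ p ∈ Lx K n r, ∃ q ∈ Lx K (n - 1) r, x = p + q * tau K := by
  simp only [NF, Submodule.mem_sup, Submodule.mem_map, LinearMap.mulRight_apply]
  constructor
  · rintro ⟨p, hp, _, ⟨q, hq, rfl⟩, rfl⟩; exact ⟨p, hp, q, hq, rfl⟩
  · rintro ⟨p, hp, q, hq, rfl⟩; exact ⟨p, hp, _, ⟨q, hq, rfl⟩, rfl⟩

lemma tau_Lx {n r : ℤ} {y : C K} (hy : y ∈ Lx K n r) : tau K * y ∈ NF K (n + 1) r := by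
  refine Lx_ind (LinearMap.mulLeft K (tau K)) _ (fun l h1 h2 => ?_) hy
  have key : ∃ p ∈ Lx K (c1 l + 1) (c2 l), ∃ q ∈ Lx K (c1 l) (c2 l),
      tau K * pr l = p + q * tau K := by
    clear h1 h2
    induction l with
    | nil => exact ⟨0, zero_mem _, 1, by simpa [pr] using pr_mem (K := K) [] le_rfl le_rfl,
        by simp [pr]⟩
    | cons a l ih =>
      obtain ⟨p, hp, q, hq, h⟩ := ih
      have e1 : c1 (a :: l) = c1 [a] + c1 l := by simp [c1]
      have e2 : c2 (a :: l) = c2 [a] + c2 l := by simp [c2]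
      refine ⟨dg (gg K) a * pr l - gg K a * p,
        sub_mem (Lx_mul (dg_Lx a) (pr_mem l le_rfl le_rfl) (by omega) (by omega))
          (Lx_mul (g_Lx a) hp (by omega) (by omega)),
        -(gg K a * q), neg_mem (Lx_mul (g_Lx a) hq (by omega) (by omega)), ?_⟩
      have h2 := (relsC K).mc a
      rw [pr_cons]
      linear_combination (norm := noncomm_ring) h2 * pr l - gg K a * h
  obtain ⟨p, hp, q, hq, h⟩ := key
  exact mem_NF.2 ⟨p, Lx_mono hp (by omega) h2, q, Lx_mono hq (by omega) h2, h⟩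

lemma wd_NF (l : List Gen) : wd l ∈ NF K (dgl l + wtl l) (wtl l) := by
  induction l with
  | nil => exact mem_NF.2 ⟨1, pr_mem (K := K) [] le_rfl le_rfl, 0, zero_mem _, by simp [wd]⟩
  | cons x l ih =>
    obtain ⟨p, hp, q, hq, h⟩ := mem_NF.1 ih
    rw [wd_cons, h, dgl_cons, wtl_cons]
    rcases x with _ | k
    · obtain ⟨p1, hp1, q1, hq1, h1⟩ := mem_NF.1 (tau_Lx hp)
      obtain ⟨p2, hp2, q2, hq2, h2⟩ := mem_NF.1 (tau_Lx hq)
      have he : gg K 0 * gg K 1 * gg K 2 * gg K 5 ∈ Lx K 3 1 := by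
        have := pr_mem (K := K) [0, 1, 2, 5] (n := 3) (r := 1) (by decide) (by decide)
        simpa [pr, mul_assoc] using this
      simp only [deg, wt]
      refine mem_NF.2 ⟨p1 + q2 * (gg K 0 * gg K 1 * gg K 2 * gg K 5),
        add_mem (Lx_mono hp1 (by omega) (by omega)) (Lx_mul hq2 he (by omega) (by omega)),
        q1 + p2, add_mem (Lx_mono hq1 (by omega) (by omega)) (Lx_mono hp2 (by omega) (by omega)),
        ?_⟩
      have h3 := (relsC K).tt
      change tau K * _ = _
      linear_combination (norm := noncomm_ring) h1 + h2 * tau K + q2 * h3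
    · have e1 : deg (some k) + wt (some k) = c1 [k] := by
        simp only [deg, wt, c1]; split_ifs <;> simp [*]
      have e2 : wt (some k) = c2 [k] := by simp [wt, c2]
      refine mem_NF.2 ⟨gg K k * p, Lx_mul (g_Lx k) hp (by omega) (by omega), gg K k * q,
        Lx_mul (g_Lx k) hq (by omega) (by omega), ?_⟩
      change gg K k * _ = _
      rw [mul_add, mul_assoc]

lemma Gs_zero {d s : ℤ} (h : 4 ≤ s ∨ 5 ≤ d + s) {x : C K} (hx : x ∈ Gs K d s) : x = 0 := by
  refine Gs_ind LinearMap.id ⊥ (fun l h1 h2 => ?_) hx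
  obtain ⟨p, hp, q, hq, e⟩ := mem_NF.1 (wd_NF (K := K) l)
  rw [LinearMap.id_apply, e, Lx_big (by omega) hp, Lx_big (by omega) hq]
  simp

instance : Module.Finite K (C K) := by
  let L0 : Submodule K (C K) := Submodule.span K (pr (K := K) '' {l | l.Nodup})
  have hf : ({l | l.Nodup} : Set (List (Fin 6))).Finite :=
    (List.finite_length_le (Fin 6) 6).subset fun l hl => by
      simpa using List.Nodup.length_le_card hl
  have h0 : L0.FG := Submodule.fg_span (hf.image _)
  have hL : ∀ n r, ∀ x ∈ Lx K n r, x ∈ L0 := by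
    intro n r x hx
    refine Lx_ind LinearMap.id _ (fun l _ _ => ?_) hx
    by_cases hl : l.Nodup
    · exact Submodule.subset_span ⟨l, hl, rfl⟩
    · simp [pr_eq_zero l hl]
  constructor
  have : (⊤ : Submodule K (C K)) = L0 ⊔ L0.map (LinearMap.mulRight K (tau K)) := by
    refine (eq_top_iff.2 fun y _ => ?_).symm
    refine (Submodule.span_le.2 ?_) (mem_span_wd y)
    rintro _ ⟨l, rfl⟩
    obtain ⟨p, hp, q, hq, e⟩ := mem_NF.1 (wd_NF (K := K) l)
    rw [e]
    exact Submodule.add_mem_sup (hL _ _ _ hp) ⟨q, hL _ _ _ hq, rfl⟩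
  rw [this]
  exact h0.sup (h0.map _)

end Vale.Agent.P195
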