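import Vale.Agent.P195.Alg

/-! The projective resolution and its Hom complexes. -/

namespace Vale.Agent.P195

open Finset

variable {K : Type} [Field K]

variable (K) in
/-- idempotent of a generator -/
noncomputable def eb (n i j k : ℤ) : Alg K := if pos i j k then ee K (n - 2 * (i + j + k)) else 0

lemma eb_pos {n i j k : ℤ} (h : pos i j k) : eb K n i j k = ee K (n - 2 * (i + j + k)) := if_pos h
lemma eb_neg {n i j k : ℤ} (h : ¬ pos i j k) : eb K n i j k = 0 := if_neg h

lemma eb_sq (n i j k : ℤ) : eb K n i j k * eb K n i j k = eb K n i j k := by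
  unfold eb; split_ifs
  · exact ee_sq _
  · simp

variable (K) in
/-- the projective modules -/
def PP (n : ℤ) : Submodule (Alg K) (ℤ → ℤ → ℤ → Alg K) where
  carrier := {x | ∀ i j k, x i j k * eb K n i j k = x i j k}
  add_mem' := fun hx hy i j k => by simp only [Pi.add_apply, add_mul, hx i j k, hy i j k]
  zero_mem' := fun i j k => by simp
  smul_mem' := fun a x hx i j k => by simp only [Pi.smul_apply, smul_eq_mul, mul_assoc, hx i j k]

lemma PP_rep {n : ℤ} {x : ℤ → ℤ → ℤ → Alg K} (hx : x ∈ PP K n) (J : ℤ) :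
    ∃ f : ℤ → ℤ → ℤ → C K, Supp f ∧
      ∀ i j k, Rp J (n - 2 * (i + j + k)) ((ee K J • x) i j k) (f i j k) := by
  have : ∀ i j k, ∃ c : C K, (¬ pos i j k → c = 0) ∧
      Rp J (n - 2 * (i + j + k)) ((ee K J • x) i j k) c := by
    intro i j k
    have h := hx i j k
    simp only [Pi.smul_apply, smul_eq_mul]
    by_cases hp : pos i j k
    · rw [eb_pos hp] at h
      obtain ⟨c, hc⟩ := Rp_sandwich (x i j k) J (n - 2 * (i + j + k))
      rw [mul_assoc, h] at hc
      exact ⟨c, fun h => absurd hp h, hc⟩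
    · rw [eb_neg hp, mul_zero] at h
      exact ⟨0, fun _ => rfl, by rw [← h, mul_zero]; exact Rp.zero _ _⟩
  choose f h1 h2 using this
  exact ⟨f, h1, h2⟩

lemma rep_PP {n J : ℤ} {x : ℤ → ℤ → ℤ → Alg K} {f : ℤ → ℤ → ℤ → C K} (hf : Supp f)
    (h : ∀ i j k, Rp J (n - 2 * (i + j + k)) (x i j k) (f i j k)) : x ∈ PP K n := by
  intro i j k
  by_cases hp : pos i j k
  · rw [eb_pos hp, (h i j k).right]
  · have := h i j k
    rw [hf i j k hp] at this
    rw [this.uniq (Rp.zero _ _), zero_mul]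

variable (K) in
/-- the differential on all families -/
noncomputable def DA : (ℤ → ℤ → ℤ → Alg K) →ₗ[Alg K] (ℤ → ℤ → ℤ → Alg K) where
  toFun := DR (gA K) (tA K) (eA K)
  map_add' x y := by
    ext i j k
    simp only [DR, Pi.add_apply, add_mul]
    module
  map_smul' a x := by
    ext i j k
    simp only [DR, Pi.smul_apply, smul_eq_mul, RingHom.id_apply, mul_add, mul_sub,
      mul_smul_comm, mul_assoc]

lemma decomp {Y : Type} [AddCommGroup Y] [Module (Alg K) Y] (x : Y) :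
    x = ∑ J : Fin 7, ee K (zz J) • x := by
  rw [← sum_smul, sum_ee, one_smul]

lemma DA_mem {n : ℤ} {x : ℤ → ℤ → ℤ → Alg K} (hx : x ∈ PP K (n + 1)) : DA K x ∈ PP K n := by
  rw [decomp (K := K) (DA K x)]
  refine Submodule.sum_mem _ fun J _ => ?_
  obtain ⟨f, h1, h2⟩ := PP_rep hx (zz J)
  rw [← map_smul]
  refine rep_PP (J := zz J) (Supp_DR h1) (fun i j k => ?_)
  have := Rp_DR h2 i j k
  rwa [add_sub_cancel_right] at this

lemma DA_sq {n : ℤ} {x : ℤ → ℤ → ℤ → Alg K} (hx : x ∈ PP K n) : DA K (DA K x) = 0 := by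
  rw [decomp (K := K) (DA K (DA K x))]
  refine sum_eq_zero fun J _ => ?_
  obtain ⟨f, -, h2⟩ := PP_rep hx (zz J)
  rw [← map_smul, ← map_smul]
  ext i j k
  have := Rp_DR (Rp_DR h2) i j k
  rw [DR_sq] at this
  exact this.uniq (Rp.zero _ _)

lemma DA_exact [CharZero K] {n : ℤ} (hn : 1 ≤ n) {x : ℤ → ℤ → ℤ → Alg K} (hx : x ∈ PP K n)
    (hD : DA K x = 0) : ∃ y ∈ PP K (n + 1), DA K y = x := by
  have : ∀ J : Fin 7, ∃ y ∈ PP K (n + 1), DA K y = ee K (zz J) • x := by
    intro J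
    obtain ⟨f, h1, h2⟩ := PP_rep hx (zz J)
    obtain ⟨g, g1, g2, g3⟩ := exR (zz J) n hn f h1 (fun i j k => (h2 i j k).mem)
      (fun i j k => (Rp_DR h2 i j k).zero_iff.1 (by
        change DA K (ee K (zz J) • x) i j k = 0
        rw [map_smul, hD, smul_zero]; rfl))
    choose y hy using fun i j k => Rp_ex (g2 i j k)
    refine ⟨y, rep_PP g1 hy, ?_⟩
    ext i j k
    have := Rp_DR hy i j k
    rw [add_sub_cancel_right] at this
    exact (this.eq_iff (h2 i j k)).2 (g3 i j k)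
  choose y h1 h2 using this
  refine ⟨∑ J, y J, Submodule.sum_mem _ fun J _ => h1 J, ?_⟩
  rw [map_sum, sum_congr rfl fun J _ => h2 J, ← decomp]

variable (K) in
/-- terms of the resolution -/
abbrev Pn (n : ℕ) : Type := PP K n

variable (K) in
/-- differential of the resolution -/
noncomputable def Dn (n : ℕ) : Pn K (n + 1) →ₗ[Alg K] Pn K n :=
  (DA K).restrict fun _ hx => DA_mem (by exact_mod_cast hx)

lemma Dn_val (n : ℕ) (x : Pn K (n + 1)) : (Dn K n x).1 = DA K x.1 := rfl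

lemma Dn_exact [CharZero K] (n : ℕ) : Function.Exact (Dn K (n + 1)) (Dn K n) := by
  intro x
  constructor
  · intro h
    obtain ⟨y, h1, h2⟩ := DA_exact (by omega) x.2 (congrArg Subtype.val h)
    exact ⟨⟨y, by exact_mod_cast h1⟩, Subtype.ext h2⟩
  · rintro ⟨y, rfl⟩
    exact Subtype.ext (DA_sq y.2)

variable (K) in
/-- generators -/
noncomputable def gn (n : ℕ) (i j k : ℤ) : Pn K n :=
  ⟨fun a b c => if a = i ∧ b = j ∧ c = k then eb K n i j k else 0, fun a b c => by
    by_cases h : a = i ∧ b = j ∧ c = k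
    · obtain ⟨rfl, rfl, rfl⟩ := h
      simp [eb_sq]
    · simp [h]⟩

lemma gn_val (n : ℕ) (i j k a b c : ℤ) :
    (gn K n i j k).1 a b c = if a = i ∧ b = j ∧ c = k then eb K n i j k else 0 := rfl

lemma eb_gn (n : ℕ) (i j k : ℤ) : eb K n i j k • gn K n i j k = gn K n i j k := by
  ext a b c
  simp only [Submodule.coe_smul, Pi.smul_apply, gn_val, smul_eq_mul]
  split_ifs
  · exact eb_sq _ _ _ _
  · simp

/-- finite index set -/
noncomputable def Box (n : ℕ) : Finset (ℤ × ℤ × ℤ) := Icc (0 : ℤ) n ×ˢ Icc (0 : ℤ) n ×ˢ Icc (0 : ℤ) n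

lemma eb_box {n : ℕ} {i j k : ℤ} (h : (i, j, k) ∉ Box n) : eb K n i j k = 0 := by
  unfold eb
  split_ifs with hp
  · unfold pos at hp
    simp only [Box, mem_product, mem_Icc] at h
    exact ee_out (by omega)
  · rfl

lemma expand {n : ℕ} (x : Pn K n) :
    ∑ p ∈ Box n, x.1 p.1 p.2.1 p.2.2 • gn K n p.1 p.2.1 p.2.2 = x := by
  ext a b c
  simp only [Submodule.coe_sum, Finset.sum_apply, Submodule.coe_smul, Pi.smul_apply, gn_val,
    smul_eq_mul]
  rw [sum_eq_single (a, b, c)]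
  · simp [x.2 a b c]
  · rintro ⟨i, j, k⟩ _ h
    rw [if_neg, mul_zero]
    rintro ⟨rfl, rfl, rfl⟩
    exact h rfl
  · intro h
    simp [eb_box h]

section hom

variable {Y : Type} [AddCommGroup Y] [Module (Alg K) Y]

lemma hom_ext {n : ℕ} {φ ψ : Pn K n →ₗ[Alg K] Y}
    (h : ∀ i j k, φ (gn K n i j k) = ψ (gn K n i j k)) : φ = ψ := by
  ext1 x
  rw [← expand x]
  simp only [map_sum, map_smul, h]

/-- homomorphism with given values -/
noncomputable def mkHom (n : ℕ) (z : ℤ → ℤ → ℤ → Y) : Pn K n →ₗ[Alg K] Y where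
  toFun x := ∑ p ∈ Box n, x.1 p.1 p.2.1 p.2.2 • z p.1 p.2.1 p.2.2
  map_add' x y := by simp [add_smul, sum_add_distrib]
  map_smul' a x := by simp [smul_sum, mul_smul]

lemma mkHom_gn (n : ℕ) (z : ℤ → ℤ → ℤ → Y) (i j k : ℤ) :
    mkHom n z (gn K n i j k) = eb K n i j k • z i j k := by
  change ∑ p ∈ Box n, _ = _
  rw [sum_eq_single (i, j, k)]
  · simp [gn_val]
  · rintro ⟨a, b, c⟩ _ h
    rw [gn_val, if_neg, zero_smul]
    rintro ⟨rfl, rfl, rfl⟩
    exact h rfl
  · intro h
    simp [gn_val, eb_box h]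

end hom

variable (K) in
/-- the free cover -/
noncomputable def cov (n : ℕ) : (Box n → Alg K) →ₗ[Alg K] Pn K n where
  toFun a := ∑ p : Box n, a p • gn K n p.1.1 p.1.2.1 p.1.2.2
  map_add' x y := by simp [add_smul, sum_add_distrib]
  map_smul' a x := by simp [smul_sum, mul_smul]

variable (K) in
/-- the section -/
noncomputable def sec (n : ℕ) : Pn K n →ₗ[Alg K] (Box n → Alg K) where
  toFun x p := x.1 p.1.1 p.1.2.1 p.1.2.2
  map_add' _ _ := rfl
  map_smul' _ _ := rfl

lemma cov_sec (n : ℕ) (x : Pn K n) : cov K n (sec K n x) = x := by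
  conv_rhs => rw [← expand x, ← sum_coe_sort]
  rfl

lemma Pn_proj (n : ℕ) : Module.Projective (Alg K) (Pn K n) :=
  Module.Projective.of_split (sec K n) (cov K n) (LinearMap.ext (cov_sec n))

instance (n : ℕ) : Module.Finite (Alg K) (Pn K n) :=
  Module.Finite.of_surjective (cov K n) fun x => ⟨_, cov_sec n x⟩

lemma eb_bar {d n i j k n' i' j' k' : ℤ} {y : C K} (hy : y ∈ Gs K d 0) (hp : pos i j k)
    (hp' : pos i' j' k') (h : n - 2 * (i + j + k) - (n' - 2 * (i' + j' + k')) = d) :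
    eb K n i j k * bar hy = bar hy * eb K n' i' j' k' := by
  rw [eb_pos hp, eb_pos hp', ee_bar hy h]

lemma term1 {d n i j k n' i' j' k' m m' : ℤ} {y : C K} (hy : y ∈ Gs K d 0) {P Q : Prop}
    [Decidable P] [Decidable Q] (hPQ : P ↔ Q) (hm : P → m = m')
    (hp' : pos i j k → m' ≠ 0 → pos i' j' k')
    (h : n - 2 * (i + j + k) - (n' - 2 * (i' + j' + k')) = d) :
    m • ((if P then eb K n i j k else 0) * bar hy) =
      m' • (eb K n i j k * bar hy * if Q then eb K n' i' j' k' else 0) := by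
  by_cases hP : P
  · rw [if_pos hP, if_pos (hPQ.1 hP), hm hP]
    by_cases h0 : m' = 0
    · simp [h0]
    by_cases hp : pos i j k
    · rw [eb_bar hy hp (hp' hp h0) h, mul_assoc, eb_sq]
    · simp [eb_neg hp]
  · simp [hP, mt hPQ.2 hP]

lemma Dn_gn (n : ℕ) (i j k : ℤ) : Dn K n (gn K (n + 1) i j k) =
    eb K (n + 1 : ℕ) i j k • DL (gA K) (tA K) (eA K) (gn K n) i j k := by
  ext a b c
  have d := deg_vals
  have t1 := term1 (K := K) (n := (n + 1 : ℕ)) (n' := n) (m := 1) (m' := 1) (i := i) (j := j)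
    (k := k) (i' := i) (j' := j) (k' := k) (P := a = i ∧ b = j ∧ c = k) tau_mem Iff.rfl
    (fun _ => rfl) (fun h _ => h) (by omega)
  have t2 := term1 (K := K) (n := (n + 1 : ℕ)) (n' := n) (m := 1) (m' := 1) (i := i) (j := j)
    (k := k) (i' := i) (j' := j) (k' := k + 1) (P := a = i ∧ b = j ∧ c - 1 = k)
    (Q := a = i ∧ b = j ∧ c = k + 1) eps_mem (by omega)
    (fun _ => rfl) (by unfold pos; omega) (by omega)
  rw [one_smul, one_smul] at t1 t2
  simp only [Dn_val, DA, DR, DL, LinearMap.coe_mk, AddHom.coe_mk, gn_val, smul_sub, smul_add,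
    smul_comm (eb K (n + 1 : ℕ) i j k) (_ : ℤ), smul_smul, Submodule.coe_sub, Submodule.coe_add,
    Submodule.coe_smul, Submodule.coe_smul_of_tower, Pi.sub_apply, Pi.add_apply, Pi.smul_apply,
    smul_eq_mul, gA, tA, eA]
  rw [t1, t2,
    term1 (g_mem 2) Iff.rfl (m' := i - j) (n' := n) (by omega) (fun h _ => h) (by omega),
    term1 (g_mem 0) (Q := a = i - 1 ∧ b = j + 1 ∧ c = k) (m' := i) (i' := i - 1) (j' := j + 1)
      (k' := k) (n' := n) (by omega) (by omega) (by unfold pos; omega) (by omega),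
    term1 (g_mem 1) (Q := a = i + 1 ∧ b = j - 1 ∧ c = k) (m' := j) (i' := i + 1) (j' := j - 1)
      (k' := k) (n' := n) (by omega) (by omega) (by unfold pos; omega) (by omega),
    term1 (g_mem 3) (Q := a = i - 1 ∧ b = j ∧ c = k) (m' := i) (i' := i - 1) (j' := j)
      (k' := k) (n' := n) (by omega) (by omega) (by unfold pos; omega) (by omega),
    term1 (g_mem 4) (Q := a = i ∧ b = j - 1 ∧ c = k) (m' := j) (i' := i) (j' := j - 1)
      (k' := k) (n' := n) (by omega) (by omega) (by unfold pos; omega) (by omega),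
    term1 (g_mem 5) (Q := a = i ∧ b = j ∧ c = k - 1) (m' := k) (i' := i) (j' := j)
      (k' := k - 1) (n' := n) (by omega) (by omega) (by unfold pos; omega) (by omega)]

section hom2

variable {Y : Type} [AddCommGroup Y] [Module (Alg K) Y]

/-- left differential over the algebra -/
noncomputable abbrev DLA (y : ℤ → ℤ → ℤ → Y) : ℤ → ℤ → ℤ → Y := DL (gA K) (tA K) (eA K) y

lemma map_DL {Z : Type} [AddCommGroup Z] [Module (Alg K) Z] (φ : Z →ₗ[Alg K] Y)
    (z : ℤ → ℤ → ℤ → Z) (i j k : ℤ) :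
    φ (DLA (K := K) z i j k) = DLA (K := K) (fun i j k => φ (z i j k)) i j k := by
  simp only [DL, map_add, map_sub, map_zsmul, map_smul]

lemma hom_Dn {n : ℕ} (φ : Pn K n →ₗ[Alg K] Y) (i j k : ℤ) :
    φ (Dn K n (gn K (n + 1) i j k)) =
      eb K (n + 1 : ℕ) i j k • DLA (K := K) (fun i j k => φ (gn K n i j k)) i j k := by
  rw [Dn_gn, map_smul, map_DL]

lemma term2 {d n i j k n' i' j' k' m : ℤ} {y : C K} (hy : y ∈ Gs K d 0) (w : Y)
    (hp : pos i j k) (hp' : m ≠ 0 → pos i' j' k')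
    (h : n - 2 * (i + j + k) - (n' - 2 * (i' + j' + k')) = d) :
    eb K n i j k • m • bar hy • w = m • bar hy • eb K n' i' j' k' • w := by
  by_cases h0 : m = 0
  · simp [h0]
  · rw [smul_comm, smul_smul, eb_bar hy hp (hp' h0) h, mul_smul]

lemma eb_DL (n : ℤ) (z : ℤ → ℤ → ℤ → Y) {i j k : ℤ} (hp : pos i j k) :
    eb K (n + 1) i j k • DLA (K := K) z i j k =
      DLA (K := K) (fun i j k => eb K n i j k • z i j k) i j k := by
  have d := deg_vals
  have hp' := hp
  unfold pos at hp'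
  have t1 := term2 (K := K) (n := n + 1) (n' := n) (m := 1) tau_mem (z i j k) hp (fun _ => hp)
    (by omega)
  have t2 := term2 (K := K) (n := n + 1) (n' := n) (m := 1) (i' := i) (j' := j) (k' := k + 1)
    eps_mem (z i j (k + 1)) hp (by unfold pos; omega) (by omega)
  rw [one_smul, one_smul] at t1 t2
  simp only [DL, smul_sub, smul_add, gA, tA, eA]
  rw [t1, t2, term2 (g_mem 2) (n' := n) _ hp (fun _ => hp) (by omega),
    term2 (g_mem 0) (n' := n) (i' := i - 1) (j' := j + 1) (k' := k) _ hp (by unfold pos; omega)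
      (by omega),
    term2 (g_mem 1) (n' := n) (i' := i + 1) (j' := j - 1) (k' := k) _ hp (by unfold pos; omega)
      (by omega),
    term2 (g_mem 3) (n' := n) (i' := i - 1) (j' := j) (k' := k) _ hp (by unfold pos; omega)
      (by omega),
    term2 (g_mem 4) (n' := n) (i' := i) (j' := j - 1) (k' := k) _ hp (by unfold pos; omega)
      (by omega),
    term2 (g_mem 5) (n' := n) (i' := i) (j' := j) (k' := k - 1) _ hp (by unfold pos; omega)
      (by omega)]

variable (K Y) in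
/-- exactness of the Hom complex -/
def HE' (n : ℕ) : Prop := ∀ φ : Pn K (n + 1) →ₗ[Alg K] Y, φ.comp (Dn K (n + 1)) = 0 →
  ∃ ψ : Pn K n →ₗ[Alg K] Y, ψ.comp (Dn K n) = φ

lemma HE_of (n : ℕ) (h : ∀ y : ℤ → ℤ → ℤ → Y, (∀ i j k, eb K (n + 1) i j k • y i j k = y i j k) →
    (∀ i j k, pos i j k → DLA (K := K) y i j k = 0) →
    ∃ z : ℤ → ℤ → ℤ → Y, ∀ i j k, pos i j k → DLA (K := K) z i j k = y i j k) : HE' K Y n := by
  intro φ hφ
  have hy : ∀ i j k, eb K (n + 1) i j k • φ (gn K (n + 1) i j k) = φ (gn K (n + 1) i j k) := by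
    intro i j k
    rw [← map_smul]
    exact congrArg φ (by exact_mod_cast eb_gn (n + 1) i j k)
  obtain ⟨z, hz⟩ := h (fun i j k => φ (gn K (n + 1) i j k)) hy (fun i j k hp => by
    have h1 := LinearMap.congr_fun hφ (gn K (n + 1 + 1) i j k)
    rw [LinearMap.comp_apply, hom_Dn, LinearMap.zero_apply] at h1
    push_cast at h1
    rw [eb_DL _ _ hp] at h1
    simpa only [hy] using h1)
  refine ⟨mkHom n z, hom_ext fun i j k => ?_⟩
  rw [LinearMap.comp_apply, hom_Dn]
  push_cast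
  simp only [mkHom_gn]
  by_cases hp : pos i j k
  · rw [← eb_DL _ _ hp, hz i j k hp, hy, hy]
  · rw [← hy, eb_neg hp, zero_smul, zero_smul]

end hom2

lemma FE_col [CharZero K] (J n : ℤ) (h : J ≤ 2 ∨ 4 ≤ n) (y : ℤ → ℤ → ℤ → Alg K)
    (hy : ∀ i j k, eb K n i j k * y i j k = y i j k) (hJ : ∀ i j k, y i j k * ee K J = y i j k)
    (hD : ∀ i j k, pos i j k → DLA (K := K) y i j k = 0) :
    ∃ z : ℤ → ℤ → ℤ → Alg K, (∀ i j k, z i j k * ee K J = z i j k) ∧
      ∀ i j k, pos i j k → DLA (K := K) z i j k = y i j k := by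
  have : ∀ i j k, ∃ c, Rp (n - 2 * (i + j + k)) J (y i j k) c := by
    intro i j k
    have h1 := hy i j k
    by_cases hp : pos i j k
    · rw [eb_pos hp] at h1
      exact Rp_of h1 (hJ i j k)
    · rw [eb_neg hp, zero_mul] at h1
      exact ⟨0, h1 ▸ Rp.zero _ _⟩
  choose f hf using this
  obtain ⟨g, g1, g2⟩ := exL J n h f (fun i j k _ => (hf i j k).mem)
    (fun i j k hp => (Rp_DL hf i j k).zero_iff.1 (hD i j k hp))
  have g3 : ∀ i j k, (if pos i j k then g i j k else 0) ∈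
      Gs K (n - 1 - 2 * (i + j + k) - J) 0 := by
    intro i j k
    split_ifs with hp
    · exact g1 i j k hp
    · exact zero_mem _
  choose z hz using fun i j k => Rp_ex (g3 i j k)
  refine ⟨z, fun i j k => (hz i j k).right, fun i j k hp => ?_⟩
  have := Rp_DL hz i j k
  rw [sub_add_cancel] at this
  refine (this.eq_iff (hf i j k)).2 ?_
  rw [DLC, DL_congr _ _ _ (z := g) (fun i j k hp => if_pos hp) hp]
  exact g2 i j k hp

lemma HE_A [CharZero K] (n : ℕ) (hn : 3 ≤ n) : HE' K (Alg K) n := by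
  refine HE_of n fun y hy hD => ?_
  have : ∀ J : Fin 7, ∃ z : ℤ → ℤ → ℤ → Alg K,
      ∀ i j k, pos i j k → DLA (K := K) z i j k = y i j k * ee K (zz J) := by
    intro J
    obtain ⟨z, -, hz⟩ := FE_col (zz J) (n + 1) (Or.inr (by omega))
      (fun i j k => y i j k * ee K (zz J))
      (fun i j k => by rw [← mul_assoc, ← smul_eq_mul (eb K _ i j k), hy])
      (fun i j k => by rw [mul_assoc, ee_sq])
      (fun i j k hp => by
        have := map_DL (LinearMap.toSpanSingleton (Alg K) (Alg K) (ee K (zz J))) y i j k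
        rw [hD i j k hp, map_zero] at this
        exact this.symm)
    exact ⟨z, hz⟩
  choose z hz using this
  refine ⟨fun i j k => ∑ J, z J i j k, fun i j k hp => ?_⟩
  have : DLA (K := K) (fun i j k => ∑ J, z J i j k) i j k = ∑ J, DLA (K := K) (z J) i j k := by
    simp only [DL, smul_sum, sum_add_distrib, sum_sub_distrib]
  rw [this, sum_congr rfl fun J _ => hz J i j k hp, ← mul_sum, sum_ee, mul_one]

variable (K) in
/-- a coordinate -/
noncomputable def co (s : ℕ) (a b c : ℤ) : Pn K s →ₗ[Alg K] Alg K where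
  toFun x := x.1 a b c
  map_add' _ _ := rfl
  map_smul' _ _ := rfl

lemma co_apply (s : ℕ) (a b c : ℤ) (x : Pn K s) : co K s a b c x = x.1 a b c := rfl

lemma HE_P [CharZero K] (s : ℕ) (hs : s ≤ 2) (n : ℕ) : HE' K (Pn K s) n := by
  refine HE_of n fun y hy hD => ?_
  have : ∀ a b c : ℤ, ∃ z : ℤ → ℤ → ℤ → Alg K, (∀ i j k, z i j k * eb K s a b c = z i j k) ∧
      ∀ i j k, pos i j k → DLA (K := K) z i j k = co K s a b c (y i j k) := by
    intro a b c
    have h0 : ∀ i j k, co K s a b c (y i j k) * eb K s a b c = co K s a b c (y i j k) :=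
      fun i j k => (y i j k).2 a b c
    by_cases hq : pos a b c
    · rw [eb_pos hq] at h0 ⊢
      unfold pos at hq
      refine FE_col _ (n + 1) (Or.inl (by omega)) (fun i j k => co K s a b c (y i j k))
        (fun i j k => ?_) h0 (fun i j k hp => ?_)
      · rw [← smul_eq_mul, ← map_smul, hy]
      · rw [← map_DL, hD i j k hp, map_zero]
    · refine ⟨0, fun i j k => by simp, fun i j k _ => ?_⟩
      rw [← h0, eb_neg hq]
      simp [DL]
  choose z h1 h2 using this
  let w : ℤ → ℤ → ℤ → Pn K s := fun i j k => ⟨fun a b c => z a b c i j k, fun a b c => h1 a b c i j k⟩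
  have hw : ∀ a b c i j k, co K s a b c (w i j k) = z a b c i j k := fun _ _ _ _ _ _ => rfl
  refine ⟨w, fun i j k hp => ?_⟩
  ext a b c
  rw [← co_apply, ← co_apply, map_DL, ← h2 a b c i j k hp]
  simp only [hw]

end Vale.Agent.P195
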