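import Vale.Agent.P195.Cdef

/-! Derivations on C. -/

namespace Vale.Agent.P195

open Finset Matrix

variable {K : Type} [Field K]

lemma g_anti (k l : Fin 6) : gg K k * gg K l = -(gg K l * gg K k) :=
  eq_neg_of_add_eq_zero_left ((relsC K).anti k l)

lemma eps_g (k : Fin 6) : eps K * gg K k = -(gg K k * eps K) := by
  have h := (relsC K).anti
  unfold eps
  linear_combination (norm := noncomm_ring) gg K 0 * gg K 1 * h 2 k - gg K 0 * h 1 k * gg K 2 +
    h 0 k * gg K 1 * gg K 2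

lemma g0_eps : gg K 0 * eps K = 0 := by
  simpa [pr, eps, mul_assoc] using pr_eq_zero (K := K) [0, 0, 1, 2] (by decide)
lemma g1_eps : gg K 1 * eps K = 0 := by
  simpa [pr, eps, mul_assoc] using pr_eq_zero (K := K) [1, 0, 1, 2] (by decide)
lemma g2_eps : gg K 2 * eps K = 0 := by
  simpa [pr, eps, mul_assoc] using pr_eq_zero (K := K) [2, 0, 1, 2] (by decide)
lemma eps_eps : eps K * eps K = 0 := by
  rw [eps, mul_assoc, ← eps, g2_eps, mul_zero]

lemma mc0 : tau K * gg K 0 = gg K 2 * gg K 0 - gg K 0 * gg K 2 - gg K 0 * tau K :=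
  eq_sub_of_add_eq ((relsC K).mc 0)
lemma mc1 : tau K * gg K 1 = gg K 1 * gg K 2 - gg K 2 * gg K 1 - gg K 1 * tau K :=
  eq_sub_of_add_eq ((relsC K).mc 1)
lemma mc2 : tau K * gg K 2 = gg K 0 * gg K 1 - gg K 2 * tau K :=
  eq_sub_of_add_eq ((relsC K).mc 2)
lemma mc3 : tau K * gg K 3 = gg K 2 * gg K 3 + gg K 0 * gg K 4 - gg K 3 * tau K :=
  eq_sub_of_add_eq ((relsC K).mc 3)
lemma mc4 : tau K * gg K 4 = gg K 1 * gg K 3 - gg K 2 * gg K 4 - gg K 4 * tau K :=
  eq_sub_of_add_eq ((relsC K).mc 4)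
lemma mc5 : tau K * gg K 5 = -(gg K 5 * tau K) :=
  eq_neg_of_add_eq_zero_left ((relsC K).mc 5)
lemma tt : tau K * tau K = eps K * gg K 5 := (relsC K).tt
lemma gsq (k : Fin 6) : gg K k * gg K k = 0 := (relsC K).sq k

lemma tau_eps : tau K * eps K = -(eps K * tau K) := by
  have z := fun l h => pr_eq_zero (K := K) l h
  have z1 := z [2, 0, 1, 2] (by decide)
  have z2 := z [0, 2, 1, 2] (by decide)
  have z3 := z [0, 1, 2, 2] (by decide)
  have z4 := z [0, 2, 1, 2] (by decide)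
  have z5 := z [0, 1, 0, 1] (by decide)
  simp only [pr, List.map_cons, List.map_nil, List.prod_cons, List.prod_nil, mul_one] at *
  unfold eps
  linear_combination (norm := noncomm_ring) mc0 (K := K) * gg K 1 * gg K 2 -
    gg K 0 * mc1 (K := K) * gg K 2 + gg K 0 * gg K 1 * mc2 (K := K) + z1 - z2 - z3 + z4 + z5

lemma g10 : gg K 1 * gg K 0 = -(gg K 0 * gg K 1) := g_anti 1 0
lemma g20 : gg K 2 * gg K 0 = -(gg K 0 * gg K 2) := g_anti 2 0
lemma g21 : gg K 2 * gg K 1 = -(gg K 1 * gg K 2) := g_anti 2 1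
lemma g30 : gg K 3 * gg K 0 = -(gg K 0 * gg K 3) := g_anti 3 0
lemma g31 : gg K 3 * gg K 1 = -(gg K 1 * gg K 3) := g_anti 3 1
lemma g32 : gg K 3 * gg K 2 = -(gg K 2 * gg K 3) := g_anti 3 2
lemma g40 : gg K 4 * gg K 0 = -(gg K 0 * gg K 4) := g_anti 4 0
lemma g41 : gg K 4 * gg K 1 = -(gg K 1 * gg K 4) := g_anti 4 1
lemma g42 : gg K 4 * gg K 2 = -(gg K 2 * gg K 4) := g_anti 4 2
lemma g43 : gg K 4 * gg K 3 = -(gg K 3 * gg K 4) := g_anti 4 3
lemma g50 : gg K 5 * gg K 0 = -(gg K 0 * gg K 5) := g_anti 5 0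
lemma g51 : gg K 5 * gg K 1 = -(gg K 1 * gg K 5) := g_anti 5 1
lemma g52 : gg K 5 * gg K 2 = -(gg K 2 * gg K 5) := g_anti 5 2
lemma g53 : gg K 5 * gg K 3 = -(gg K 3 * gg K 5) := g_anti 5 3
lemma g54 : gg K 5 * gg K 4 = -(gg K 4 * gg K 5) := g_anti 5 4

/-- Kronecker symbol -/
def kap (K : Type) [Field K] (w : ℕ) (k : Fin 6) : K := if (k : ℕ) = w then 1 else 0

/-- five copies of C -/
abbrev V5 (K : Type) [Field K] := C K × C K × C K × C K × C K

variable (K) in
/-- left operators of the odd generators -/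
noncomputable def Lg (k : Fin 6) : Module.End K (V5 K) where
  toFun v := (gg K k * v.1, -(gg K k * v.2.1), kap K 3 k • v.1 - gg K k * v.2.2.1,
    kap K 4 k • v.1 - gg K k * v.2.2.2.1, kap K 5 k • v.1 - gg K k * v.2.2.2.2)
  map_add' v w := by
    simp only [Prod.fst_add, Prod.snd_add, Prod.mk_add_mk, Prod.mk.injEq, mul_add, smul_add]
    refine ⟨trivial, ?_, ?_, ?_, ?_⟩ <;> abel
  map_smul' r v := by
    simp only [Prod.smul_fst, Prod.smul_snd, Prod.smul_mk, Prod.mk.injEq, mul_smul_comm,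
      RingHom.id_apply]
    refine ⟨trivial, ?_, ?_, ?_, ?_⟩ <;> module

variable (K) in
/-- left operator of tau -/
noncomputable def Lt : Module.End K (V5 K) where
  toFun v := (tau K * v.1, v.1 - tau K * v.2.1,
    -(tau K * v.2.2.1) - gg K 2 * v.2.2.1 - gg K 1 * v.2.2.2.1,
    -(tau K * v.2.2.2.1) - gg K 0 * v.2.2.1 + gg K 2 * v.2.2.2.1,
    -(tau K * v.2.2.2.2) - eps K * v.2.1)
  map_add' v w := by
    simp only [Prod.fst_add, Prod.snd_add, Prod.mk_add_mk, Prod.mk.injEq, mul_add]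
    refine ⟨trivial, ?_, ?_, ?_, ?_⟩ <;> abel
  map_smul' r v := by
    simp only [Prod.smul_fst, Prod.smul_snd, Prod.smul_mk, Prod.mk.injEq, mul_smul_comm,
      RingHom.id_apply]
    refine ⟨trivial, ?_, ?_, ?_, ?_⟩ <;> module

lemma Lg_apply (k : Fin 6) (x d p q r : C K) : Lg K k (x, d, p, q, r) =
    (gg K k * x, -(gg K k * d), kap K 3 k • x - gg K k * p, kap K 4 k • x - gg K k * q,
      kap K 5 k • x - gg K k * r) := rfl

lemma Lt_apply (x d p q r : C K) : Lt K (x, d, p, q, r) =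
    (tau K * x, x - tau K * d, -(tau K * p) - gg K 2 * p - gg K 1 * q,
      -(tau K * q) - gg K 0 * p + gg K 2 * q, -(tau K * r) - eps K * d) := rfl

variable (K) in
/-- right operators of the odd generators -/
noncomputable def Rg (k : Fin 6) : Module.End K (V5 K) where
  toFun v := (v.1 * gg K k, -(v.2.1 * gg K k), kap K 3 k • v.1 - v.2.2.1 * gg K k,
    kap K 4 k • v.1 - v.2.2.2.1 * gg K k, kap K 5 k • v.1 - v.2.2.2.2 * gg K k)
  map_add' v w := by
    simp only [Prod.fst_add, Prod.snd_add, Prod.mk_add_mk, Prod.mk.injEq, add_mul, smul_add]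
    refine ⟨trivial, ?_, ?_, ?_, ?_⟩ <;> abel
  map_smul' r v := by
    simp only [Prod.smul_fst, Prod.smul_snd, Prod.smul_mk, Prod.mk.injEq, smul_mul_assoc,
      RingHom.id_apply]
    refine ⟨trivial, ?_, ?_, ?_, ?_⟩ <;> module

variable (K) in
/-- right operator of tau -/
noncomputable def Rt : Module.End K (V5 K) where
  toFun v := (v.1 * tau K, v.1 - v.2.1 * tau K,
    -(v.2.2.1 * tau K) + v.2.2.1 * gg K 2 + v.2.2.2.1 * gg K 1,
    -(v.2.2.2.1 * tau K) + v.2.2.1 * gg K 0 - v.2.2.2.1 * gg K 2,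
    -(v.2.2.2.2 * tau K) + v.2.1 * eps K)
  map_add' v w := by
    simp only [Prod.fst_add, Prod.snd_add, Prod.mk_add_mk, Prod.mk.injEq, add_mul]
    refine ⟨trivial, ?_, ?_, ?_, ?_⟩ <;> abel
  map_smul' r v := by
    simp only [Prod.smul_fst, Prod.smul_snd, Prod.smul_mk, Prod.mk.injEq, smul_mul_assoc,
      RingHom.id_apply]
    refine ⟨trivial, ?_, ?_, ?_, ?_⟩ <;> module

lemma Rg_apply (k : Fin 6) (x d p q r : C K) : Rg K k (x, d, p, q, r) =
    (x * gg K k, -(d * gg K k), kap K 3 k • x - p * gg K k, kap K 4 k • x - q * gg K k,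
      kap K 5 k • x - r * gg K k) := rfl

lemma Rt_apply (x d p q r : C K) : Rt K (x, d, p, q, r) =
    (x * tau K, x - d * tau K, -(p * tau K) + p * gg K 2 + q * gg K 1,
      -(q * tau K) + p * gg K 0 - q * gg K 2, -(r * tau K) + d * eps K) := rfl

lemma kap_vals : kap K 3 0 = 0 ∧ kap K 3 1 = 0 ∧ kap K 3 2 = 0 ∧ kap K 3 3 = 1 ∧ kap K 3 4 = 0 ∧
    kap K 3 5 = 0 ∧ kap K 4 0 = 0 ∧ kap K 4 1 = 0 ∧ kap K 4 2 = 0 ∧ kap K 4 3 = 0 ∧
    kap K 4 4 = 1 ∧ kap K 4 5 = 0 ∧ kap K 5 0 = 0 ∧ kap K 5 1 = 0 ∧ kap K 5 2 = 0 ∧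
    kap K 5 3 = 0 ∧ kap K 5 4 = 0 ∧ kap K 5 5 = 1 := by
  simp [kap]

lemma dg_vals {R : Type} [Ring R] (g : Fin 6 → R) : dg g 0 = g 2 * g 0 - g 0 * g 2 ∧
    dg g 1 = g 1 * g 2 - g 2 * g 1 ∧ dg g 2 = g 0 * g 1 ∧ dg g 3 = g 2 * g 3 + g 0 * g 4 ∧
    dg g 4 = g 1 * g 3 - g 2 * g 4 ∧ dg g 5 = 0 := ⟨rfl, rfl, rfl, rfl, rfl, rfl⟩

lemma fin6 (k : Fin 6) : k = 0 ∨ k = 1 ∨ k = 2 ∨ k = 3 ∨ k = 4 ∨ k = 5 := by
  revert k; decide

lemma relsL : Rels (Lg K) (Lt K) where
  anti k l := by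
    refine LinearMap.ext ?_
    rintro ⟨x, d, p, q, r⟩
    simp only [LinearMap.add_apply, Module.End.mul_apply, Lg_apply, Prod.mk_add_mk,
      LinearMap.zero_apply, Prod.mk_eq_zero, mul_sub, mul_neg, mul_smul_comm, ← mul_assoc,
      g_anti k l, neg_mul]
    refine ⟨?_, ?_, ?_, ?_, ?_⟩ <;> module
  sq k := by
    refine LinearMap.ext ?_
    rintro ⟨x, d, p, q, r⟩
    simp only [Module.End.mul_apply, Lg_apply,
      LinearMap.zero_apply, Prod.mk_eq_zero, mul_sub, mul_neg, mul_smul_comm, ← mul_assoc,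
      gsq, zero_mul]
    refine ⟨trivial, ?_, ?_, ?_, ?_⟩ <;> module
  mc k := by
    refine LinearMap.ext ?_
    rintro ⟨x, d, p, q, r⟩
    rcases fin6 k with rfl | rfl | rfl | rfl | rfl | rfl <;>
    simp only [dg_vals, kap_vals, LinearMap.add_apply, LinearMap.sub_apply, Module.End.mul_apply,
      Lg_apply, Lt_apply, Prod.mk_add_mk, Prod.mk_sub_mk, Prod.mk.injEq,
      LinearMap.zero_apply, Prod.mk_eq_zero, mul_sub, mul_add, mul_neg, mul_smul_comm, ← mul_assoc,
      zero_smul, one_smul, mc0, mc1, mc2, mc3, mc4, mc5, eps_g, gsq, add_mul, sub_mul, neg_mul,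
      zero_mul, mul_zero, g10, g20, g21, g30, g31, g32, g40, g41, g42, g50, g51, g52,
      g0_eps, g1_eps, g2_eps] <;>
    refine ⟨?_, ?_, ?_, ?_, ?_⟩ <;> abel
  tt := by
    refine LinearMap.ext ?_
    rintro ⟨x, d, p, q, r⟩
    simp only [kap_vals, Module.End.mul_apply,
      Lg_apply, Lt_apply, Prod.mk.injEq, mul_sub, mul_add, mul_neg, mul_smul_comm, ← mul_assoc,
      zero_smul, one_smul, mc0, mc1, mc2, gsq, add_mul, sub_mul, neg_mul,
      zero_mul, mul_zero, g10, g20, g21, tt, tau_eps, ← eps.eq_1]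
    refine ⟨trivial, ?_, ?_, ?_, ?_⟩ <;> abel

open MulOpposite in
lemma relsR : Rels (fun k => op (Rg K k)) (op (Rt K)) where
  anti k l := by
    refine unop_injective (LinearMap.ext ?_)
    rintro ⟨x, d, p, q, r⟩
    simp only [unop_add, unop_mul, unop_op, unop_zero,
      LinearMap.add_apply, Module.End.mul_apply, Rg_apply, Prod.mk_add_mk,
      LinearMap.zero_apply, Prod.mk_eq_zero, sub_mul, neg_mul, smul_mul_assoc, mul_assoc,
      g_anti k l, mul_neg]
    refine ⟨?_, ?_, ?_, ?_, ?_⟩ <;> module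
  sq k := by
    refine unop_injective (LinearMap.ext ?_)
    rintro ⟨x, d, p, q, r⟩
    simp only [unop_mul, unop_op, unop_zero, Module.End.mul_apply, Rg_apply,
      LinearMap.zero_apply, Prod.mk_eq_zero, sub_mul, neg_mul, smul_mul_assoc, mul_assoc,
      gsq, mul_zero]
    refine ⟨trivial, ?_, ?_, ?_, ?_⟩ <;> module
  mc k := by
    refine unop_injective (LinearMap.ext ?_)
    rintro ⟨x, d, p, q, r⟩
    rcases fin6 k with rfl | rfl | rfl | rfl | rfl | rfl <;>
    simp only [unop_add, unop_sub, unop_mul, unop_op, unop_zero,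
      dg_vals, kap_vals, LinearMap.add_apply, LinearMap.sub_apply, Module.End.mul_apply,
      Rg_apply, Rt_apply, Prod.mk_add_mk, Prod.mk_sub_mk, Prod.mk.injEq,
      LinearMap.zero_apply, Prod.mk_eq_zero, mul_sub, mul_add, mul_neg, smul_mul_assoc, mul_assoc,
      zero_smul, one_smul, mc0, mc1, mc2, mc3, mc4, mc5, eps_g, gsq, add_mul, sub_mul, neg_mul,
      zero_mul, mul_zero, g10, g20, g21, g30, g31, g32, g40, g41, g42, g50, g51, g52,
      g0_eps, g1_eps, g2_eps] <;>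
    refine ⟨?_, ?_, ?_, ?_, ?_⟩ <;> abel
  tt := by
    refine unop_injective (LinearMap.ext ?_)
    rintro ⟨x, d, p, q, r⟩
    have he : gg K 0 * (gg K 1 * (gg K 2 * gg K 5)) = eps K * gg K 5 := by
      simp only [eps, mul_assoc]
    have he' : gg K 0 * (gg K 1 * gg K 2) = eps K := by simp only [eps, mul_assoc]
    simp only [unop_mul, unop_op, kap_vals, Module.End.mul_apply,
      Rg_apply, Rt_apply, Prod.mk.injEq, mul_sub, mul_add, mul_neg, smul_mul_assoc, mul_assoc,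
      zero_smul, one_smul, mc0, mc1, mc2, gsq, add_mul, sub_mul, neg_mul,
      zero_mul, mul_zero, g10, g20, g21, tt, tau_eps, he, he']
    refine ⟨trivial, ?_, ?_, ?_, ?_⟩ <;> abel

variable (K) in
/-- left derivation data -/
noncomputable def uL : C K →ₗ[K] V5 K :=
  (LinearMap.applyₗ ((1, 0, 0, 0, 0) : V5 K)).comp (liftC (K := K) (relsL (K := K))).toLinearMap

variable (K) in
/-- right derivation data -/
noncomputable def uR : C K →ₗ[K] V5 K :=
  (LinearMap.applyₗ ((1, 0, 0, 0, 0) : V5 K)).comp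
    ((MulOpposite.opLinearEquiv K).symm.toLinearMap.comp
      (liftC (K := K) (relsR (K := K))).toLinearMap)

lemma uL_one : uL K 1 = (1, 0, 0, 0, 0) := by simp [uL]
lemma uR_one : uR K 1 = (1, 0, 0, 0, 0) := by simp [uR]
lemma uL_g (k : Fin 6) (x : C K) : uL K (gg K k * x) = Lg K k (uL K x) := by simp [uL, liftC_g]
lemma uL_t (x : C K) : uL K (tau K * x) = Lt K (uL K x) := by simp [uL, liftC_tau]
lemma uR_g (k : Fin 6) (x : C K) : uR K (x * gg K k) = Rg K k (uR K x) := by simp [uR, liftC_g]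
lemma uR_t (x : C K) : uR K (x * tau K) = Rt K (uR K x) := by simp [uR, liftC_tau]

lemma lin_ext {N : Type} [AddCommGroup N] [Module K N] {φ ψ : C K →ₗ[K] N}
    (h : ∀ l, φ (wd l) = ψ (wd l)) (x : C K) : φ x = ψ x :=
  LinearMap.eqOn_span (s := Set.range wd) (by rintro _ ⟨l, rfl⟩; exact h l) (mem_span_wd x)

lemma uL_fst (x : C K) : (uL K x).1 = x := by
  refine lin_ext (φ := (LinearMap.fst K _ _).comp (uL K)) (ψ := LinearMap.id) (fun l => ?_) x
  change (uL K (wd l)).1 = wd l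
  induction l with
  | nil => rw [wd_nil, uL_one]
  | cons y l ih =>
    rw [wd_cons]
    rcases y with _ | k
    · exact (congrArg Prod.fst (uL_t _)).trans (congrArg (tau K * ·) ih)
    · exact (congrArg Prod.fst (uL_g k _)).trans (congrArg (gg K k * ·) ih)

lemma uR_fst (x : C K) : (uR K x).1 = x := by
  refine lin_ext (φ := (LinearMap.fst K _ _).comp (uR K)) (ψ := LinearMap.id) (fun l => ?_) x
  change (uR K (wd l)).1 = wd l
  induction l using List.reverseRecOn with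
  | nil => rw [wd_nil, uR_one]
  | append_singleton l y ih =>
    rw [wd_concat]
    rcases y with _ | k
    · exact (congrArg Prod.fst (uR_t _)).trans (congrArg (· * tau K) ih)
    · exact (congrArg Prod.fst (uR_g k _)).trans (congrArg (· * gg K k) ih)

/-- second component -/
noncomputable def p2 : V5 K →ₗ[K] C K := (LinearMap.fst K _ _).comp (LinearMap.snd K _ _)
/-- third component -/
noncomputable def p3 : V5 K →ₗ[K] C K :=
  (LinearMap.fst K _ _).comp ((LinearMap.snd K _ _).comp (LinearMap.snd K _ _))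
/-- fourth component -/
noncomputable def p4 : V5 K →ₗ[K] C K :=
  (LinearMap.fst K _ _).comp ((LinearMap.snd K _ _).comp
    ((LinearMap.snd K _ _).comp (LinearMap.snd K _ _)))
/-- fifth component -/
noncomputable def p5 : V5 K →ₗ[K] C K :=
  (LinearMap.snd K _ _).comp ((LinearMap.snd K _ _).comp
    ((LinearMap.snd K _ _).comp (LinearMap.snd K _ _)))

variable (K)
/-- left tau derivative -/
noncomputable def dL : C K →ₗ[K] C K := p2.comp (uL K)
/-- left contraction -/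
noncomputable def iL0 : C K →ₗ[K] C K := p3.comp (uL K)
/-- left contraction -/
noncomputable def iL1 : C K →ₗ[K] C K := p4.comp (uL K)
/-- left contraction -/
noncomputable def iL2 : C K →ₗ[K] C K := p5.comp (uL K)
/-- right tau derivative -/
noncomputable def dR : C K →ₗ[K] C K := p2.comp (uR K)
/-- right contraction -/
noncomputable def iR0 : C K →ₗ[K] C K := p3.comp (uR K)
/-- right contraction -/
noncomputable def iR1 : C K →ₗ[K] C K := p4.comp (uR K)
/-- right contraction -/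
noncomputable def iR2 : C K →ₗ[K] C K := p5.comp (uR K)
variable {K}

lemma uL_eq (x : C K) : uL K x = (x, dL K x, iL0 K x, iL1 K x, iL2 K x) :=
  Prod.ext (uL_fst x) rfl
lemma uR_eq (x : C K) : uR K x = (x, dR K x, iR0 K x, iR1 K x, iR2 K x) :=
  Prod.ext (uR_fst x) rfl

lemma L_one : dL K 1 = 0 ∧ iL0 K 1 = 0 ∧ iL1 K 1 = 0 ∧ iL2 K 1 = 0 := by
  have := uL_one (K := K)
  rw [uL_eq] at this
  simpa only [Prod.mk.injEq, true_and] using this

lemma R_one : dR K 1 = 0 ∧ iR0 K 1 = 0 ∧ iR1 K 1 = 0 ∧ iR2 K 1 = 0 := by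
  have := uR_one (K := K)
  rw [uR_eq] at this
  simpa only [Prod.mk.injEq, true_and] using this

lemma L_g (k : Fin 6) (x : C K) : dL K (gg K k * x) = -(gg K k * dL K x) ∧
    iL0 K (gg K k * x) = kap K 3 k • x - gg K k * iL0 K x ∧
    iL1 K (gg K k * x) = kap K 4 k • x - gg K k * iL1 K x ∧
    iL2 K (gg K k * x) = kap K 5 k • x - gg K k * iL2 K x := by
  have := uL_g k x
  rw [uL_eq, uL_eq, Lg_apply] at this
  simpa only [Prod.mk.injEq, true_and] using this

lemma L_t (x : C K) : dL K (tau K * x) = x - tau K * dL K x ∧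
    iL0 K (tau K * x) = -(tau K * iL0 K x) - gg K 2 * iL0 K x - gg K 1 * iL1 K x ∧
    iL1 K (tau K * x) = -(tau K * iL1 K x) - gg K 0 * iL0 K x + gg K 2 * iL1 K x ∧
    iL2 K (tau K * x) = -(tau K * iL2 K x) - eps K * dL K x := by
  have := uL_t x
  rw [uL_eq, uL_eq, Lt_apply] at this
  simpa only [Prod.mk.injEq, true_and] using this

lemma R_g (k : Fin 6) (x : C K) : dR K (x * gg K k) = -(dR K x * gg K k) ∧
    iR0 K (x * gg K k) = kap K 3 k • x - iR0 K x * gg K k ∧
    iR1 K (x * gg K k) = kap K 4 k • x - iR1 K x * gg K k ∧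
    iR2 K (x * gg K k) = kap K 5 k • x - iR2 K x * gg K k := by
  have := uR_g k x
  rw [uR_eq, uR_eq, Rg_apply] at this
  simpa only [Prod.mk.injEq, true_and] using this

lemma R_t (x : C K) : dR K (x * tau K) = x - dR K x * tau K ∧
    iR0 K (x * tau K) = -(iR0 K x * tau K) + iR0 K x * gg K 2 + iR1 K x * gg K 1 ∧
    iR1 K (x * tau K) = -(iR1 K x * tau K) + iR0 K x * gg K 0 - iR1 K x * gg K 2 ∧
    iR2 K (x * tau K) = -(iR2 K x * tau K) + dR K x * eps K := by
  have := uR_t x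
  rw [uR_eq, uR_eq, Rt_apply] at this
  simpa only [Prod.mk.injEq, true_and] using this

lemma L_e (x : C K) : dL K (eps K * x) = -(eps K * dL K x) ∧
    iL0 K (eps K * x) = -(eps K * iL0 K x) ∧ iL1 K (eps K * x) = -(eps K * iL1 K x) ∧
    iL2 K (eps K * x) = -(eps K * iL2 K x) := by
  simp only [eps, mul_assoc, L_g, kap_vals, zero_smul, zero_sub, mul_neg, neg_neg, and_self]

lemma R_e (x : C K) : dR K (x * eps K) = -(dR K x * eps K) ∧
    iR0 K (x * eps K) = -(iR0 K x * eps K) ∧ iR1 K (x * eps K) = -(iR1 K x * eps K) ∧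
    iR2 K (x * eps K) = -(iR2 K x * eps K) := by
  simp only [eps, ← mul_assoc, R_g, kap_vals, zero_smul, zero_sub, neg_mul, neg_neg, and_self]

lemma kap_mem {w : ℕ} (hw : 3 ≤ w) (k : Fin 6) {d s : ℤ} {x : C K} (hx : x ∈ Gs K d s) :
    kap K w k • x ∈ Gs K (deg (some k) + d + 1) (wt (some k) + s - 1) := by
  unfold kap
  split_ifs with h
  · have : ¬ (k : ℕ) < 3 := by omega
    simp only [deg, wt, if_neg this, one_smul]
    exact Gs_mono hx (by ring) (Or.inl (by omega))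
  · simp

lemma L_wd (l : List Gen) : dL K (wd l) ∈ Gs K (dgl l - 1) (wtl l) ∧
    iL0 K (wd l) ∈ Gs K (dgl l + 1) (wtl l - 1) ∧ iL1 K (wd l) ∈ Gs K (dgl l + 1) (wtl l - 1) ∧
    iL2 K (wd l) ∈ Gs K (dgl l + 1) (wtl l - 1) := by
  induction l with
  | nil => simp only [wd_nil, L_one, zero_mem, and_self]
  | cons y l ih =>
    obtain ⟨h1, h2, h3, h4⟩ := ih
    have h0 : wd l ∈ Gs K (dgl l) (wtl l) := wd_mem l rfl le_rfl
    rw [wd_cons, dgl_cons, wtl_cons]
    rcases y with _ | k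
    · change dL K (tau K * _) ∈ _ ∧ iL0 K (tau K * _) ∈ _ ∧ iL1 K (tau K * _) ∈ _ ∧
        iL2 K (tau K * _) ∈ _
      simp only [L_t, deg, wt]
      exact ⟨sub_mem (Gs_mono h0 (by ring) (by omega)) (Gs_mul' tau_mem h1 (by ring) (by omega)),
        sub_mem (sub_mem (neg_mem (Gs_mul' tau_mem h2 (by ring) (by omega)))
          (Gs_mul' g2_mem h2 (by ring) (by omega))) (Gs_mul' g1_mem h3 (by ring) (by omega)),
        add_mem (sub_mem (neg_mem (Gs_mul' tau_mem h3 (by ring) (by omega)))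
          (Gs_mul' g0_mem h2 (by ring) (by omega))) (Gs_mul' g2_mem h3 (by ring) (by omega)),
        sub_mem (neg_mem (Gs_mul' tau_mem h4 (by ring) (by omega)))
          (Gs_mul' eps_mem h1 (by ring) (by omega))⟩
    · change dL K (gg K k * _) ∈ _ ∧ iL0 K (gg K k * _) ∈ _ ∧ iL1 K (gg K k * _) ∈ _ ∧
        iL2 K (gg K k * _) ∈ _
      have hg : gg K k ∈ Gs K _ _ := gen_mem (some k)
      simp only [L_g]
      exact ⟨neg_mem (Gs_mul' hg h1 (by ring) (by omega)),
        sub_mem (kap_mem (by omega) k h0) (Gs_mul' hg h2 (by ring) (by omega)),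
        sub_mem (kap_mem (by omega) k h0) (Gs_mul' hg h3 (by ring) (by omega)),
        sub_mem (kap_mem (by omega) k h0) (Gs_mul' hg h4 (by ring) (by omega))⟩

lemma R_wd (l : List Gen) : dR K (wd l) ∈ Gs K (dgl l - 1) (wtl l) ∧
    iR0 K (wd l) ∈ Gs K (dgl l + 1) (wtl l - 1) ∧ iR1 K (wd l) ∈ Gs K (dgl l + 1) (wtl l - 1) ∧
    iR2 K (wd l) ∈ Gs K (dgl l + 1) (wtl l - 1) := by
  induction l using List.reverseRecOn with
  | nil => simp only [wd_nil, R_one, zero_mem, and_self]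
  | append_singleton l y ih =>
    obtain ⟨h1, h2, h3, h4⟩ := ih
    have h0 : wd l ∈ Gs K (dgl l) (wtl l) := wd_mem l rfl le_rfl
    rw [wd_concat, dgl_concat, wtl_concat]
    rcases y with _ | k
    · change dR K (_ * tau K) ∈ _ ∧ iR0 K (_ * tau K) ∈ _ ∧ iR1 K (_ * tau K) ∈ _ ∧
        iR2 K (_ * tau K) ∈ _
      simp only [R_t, deg, wt]
      exact ⟨sub_mem (Gs_mono h0 (by ring) (by omega)) (Gs_mul' h1 tau_mem (by ring) (by omega)),
        add_mem (add_mem (neg_mem (Gs_mul' h2 tau_mem (by ring) (by omega)))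
          (Gs_mul' h2 g2_mem (by ring) (by omega))) (Gs_mul' h3 g1_mem (by ring) (by omega)),
        sub_mem (add_mem (neg_mem (Gs_mul' h3 tau_mem (by ring) (by omega)))
          (Gs_mul' h2 g0_mem (by ring) (by omega))) (Gs_mul' h3 g2_mem (by ring) (by omega)),
        add_mem (neg_mem (Gs_mul' h4 tau_mem (by ring) (by omega)))
          (Gs_mul' h1 eps_mem (by ring) (by omega))⟩
    · change dR K (_ * gg K k) ∈ _ ∧ iR0 K (_ * gg K k) ∈ _ ∧ iR1 K (_ * gg K k) ∈ _ ∧
        iR2 K (_ * gg K k) ∈ _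
      have hg : gg K k ∈ Gs K _ _ := gen_mem (some k)
      simp only [R_g]
      exact ⟨neg_mem (Gs_mul' h1 hg (by ring) (by omega)),
        sub_mem (Gs_mono (kap_mem (by omega) k h0) (by ring) (by omega))
          (Gs_mul' h2 hg (by ring) (by omega)),
        sub_mem (Gs_mono (kap_mem (by omega) k h0) (by ring) (by omega))
          (Gs_mul' h3 hg (by ring) (by omega)),
        sub_mem (Gs_mono (kap_mem (by omega) k h0) (by ring) (by omega))
          (Gs_mul' h4 hg (by ring) (by omega))⟩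

lemma dL_mem {d s e u : ℤ} {x : C K} (hx : x ∈ Gs K d s) (he : d - 1 = e) (hu : u ≤ s) :
    dL K x ∈ Gs K e u :=
  Gs_ind _ _ (fun l h1 h2 => Gs_mono (L_wd l).1 (by omega) (by omega)) hx
lemma iL0_mem {d s e u : ℤ} {x : C K} (hx : x ∈ Gs K d s) (he : d + 1 = e) (hu : u ≤ s - 1) :
    iL0 K x ∈ Gs K e u :=
  Gs_ind _ _ (fun l h1 h2 => Gs_mono (L_wd l).2.1 (by omega) (by omega)) hx
lemma iL1_mem {d s e u : ℤ} {x : C K} (hx : x ∈ Gs K d s) (he : d + 1 = e) (hu : u ≤ s - 1) :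
    iL1 K x ∈ Gs K e u :=
  Gs_ind _ _ (fun l h1 h2 => Gs_mono (L_wd l).2.2.1 (by omega) (by omega)) hx
lemma iL2_mem {d s e u : ℤ} {x : C K} (hx : x ∈ Gs K d s) (he : d + 1 = e) (hu : u ≤ s - 1) :
    iL2 K x ∈ Gs K e u :=
  Gs_ind _ _ (fun l h1 h2 => Gs_mono (L_wd l).2.2.2 (by omega) (by omega)) hx
lemma dR_mem {d s e u : ℤ} {x : C K} (hx : x ∈ Gs K d s) (he : d - 1 = e) (hu : u ≤ s) :
    dR K x ∈ Gs K e u :=
  Gs_ind _ _ (fun l h1 h2 => Gs_mono (R_wd l).1 (by omega) (by omega)) hx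
lemma iR0_mem {d s e u : ℤ} {x : C K} (hx : x ∈ Gs K d s) (he : d + 1 = e) (hu : u ≤ s - 1) :
    iR0 K x ∈ Gs K e u :=
  Gs_ind _ _ (fun l h1 h2 => Gs_mono (R_wd l).2.1 (by omega) (by omega)) hx
lemma iR1_mem {d s e u : ℤ} {x : C K} (hx : x ∈ Gs K d s) (he : d + 1 = e) (hu : u ≤ s - 1) :
    iR1 K x ∈ Gs K e u :=
  Gs_ind _ _ (fun l h1 h2 => Gs_mono (R_wd l).2.2.1 (by omega) (by omega)) hx
lemma iR2_mem {d s e u : ℤ} {x : C K} (hx : x ∈ Gs K d s) (he : d + 1 = e) (hu : u ≤ s - 1) :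
    iR2 K x ∈ Gs K e u :=
  Gs_ind _ _ (fun l h1 h2 => Gs_mono (R_wd l).2.2.2 (by omega) (by omega)) hx

variable (K) in
/-- left Euler operator -/
noncomputable def EL : C K →ₗ[K] C K :=
  (LinearMap.mulLeft K (gg K 3)).comp (iL0 K) + (LinearMap.mulLeft K (gg K 4)).comp (iL1 K) +
    (LinearMap.mulLeft K (gg K 5)).comp (iL2 K)

variable (K) in
/-- right Euler operator -/
noncomputable def ER : C K →ₗ[K] C K :=
  (LinearMap.mulRight K (gg K 3)).comp (iR0 K) + (LinearMap.mulRight K (gg K 4)).comp (iR1 K) +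
    (LinearMap.mulRight K (gg K 5)).comp (iR2 K)

lemma EL_apply (x : C K) : EL K x = gg K 3 * iL0 K x + gg K 4 * iL1 K x + gg K 5 * iL2 K x := rfl
lemma ER_apply (x : C K) : ER K x = iR0 K x * gg K 3 + iR1 K x * gg K 4 + iR2 K x * gg K 5 := rfl

lemma wt_vals : wt (some 0) = 0 ∧ wt (some 1) = 0 ∧ wt (some 2) = 0 ∧ wt (some 3) = 1 ∧
    wt (some 4) = 1 ∧ wt (some 5) = 1 := by decide

lemma EL_g (k : Fin 6) (x : C K) :
    EL K (gg K k * x) = wt (some k) • (gg K k * x) + gg K k * EL K x := by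
  rcases fin6 k with rfl | rfl | rfl | rfl | rfl | rfl <;>
  simp only [EL_apply, L_g, kap_vals, wt_vals, zero_smul, one_smul, mul_sub, mul_add, ← mul_assoc,
    mul_zero, zero_mul, neg_mul, gsq, g30, g31, g32, g40, g41, g42, g43, g50, g51, g52, g53,
    g54] <;> abel

lemma ER_g (k : Fin 6) (x : C K) :
    ER K (x * gg K k) = wt (some k) • (x * gg K k) + ER K x * gg K k := by
  rcases fin6 k with rfl | rfl | rfl | rfl | rfl | rfl <;>
  simp only [ER_apply, R_g, kap_vals, wt_vals, zero_smul, one_smul, sub_mul, add_mul, mul_assoc,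
    mul_zero, zero_mul, mul_neg, gsq, g30, g31, g32, g40, g41, g42, g43, g50, g51, g52, g53,
    g54] <;> abel

lemma EL_t (x : C K) : EL K (tau K * x) = tau K * EL K x - gg K 5 * eps K * dL K x := by
  simp only [EL_apply, L_t, mul_sub, mul_add, mul_neg, ← mul_assoc, mc3, mc4, mc5, add_mul,
    sub_mul, neg_mul, g30, g31, g32, g40, g41, g42]
  abel

lemma ER_t (x : C K) : ER K (x * tau K) = ER K x * tau K + dR K x * (eps K * gg K 5) := by
  simp only [ER_apply, R_t, mul_sub, mul_add, mul_neg, mul_assoc, mc3, mc4, mc5, add_mul,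
    sub_mul, neg_mul, g30, g31, g32, g40, g41, g42]
  abel

lemma EL_wd (l : List Gen) : wtl l • wd l - EL K (wd l) ∈ Gs K (dgl l) (wtl l + 1) := by
  induction l with
  | nil => simp [wtl_nil, wd_nil, EL_apply, L_one]
  | cons y l ih =>
    rw [wd_cons, dgl_cons, wtl_cons]
    rcases y with _ | k
    · change _ • (tau K * _) - EL K (tau K * _) ∈ _
      have e : (wt none + wtl l) • (tau K * wd l) - EL K (tau K * wd l) =
          tau K * (wtl l • wd l - EL K (wd l)) + gg K 5 * eps K * dL K (wd l) := by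
        simp only [EL_t, wt, mul_sub, mul_smul_comm]; module
      rw [e]
      simp only [deg, wt]
      exact add_mem (Gs_mul' tau_mem ih (by ring) (by omega))
        (Gs_mul' (Gs_mul g5_mem eps_mem) (L_wd l).1 (by ring) (by omega))
    · change _ • (gg K k * _) - EL K (gg K k * _) ∈ _
      have e : (wt (some k) + wtl l) • (gg K k * wd l) - EL K (gg K k * wd l) =
          gg K k * (wtl l • wd l - EL K (wd l)) := by
        simp only [EL_g, mul_sub, mul_smul_comm]; module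
      rw [e]
      exact Gs_mul' (gen_mem (some k)) ih rfl (by omega)

lemma ER_wd (l : List Gen) : wtl l • wd l - ER K (wd l) ∈ Gs K (dgl l) (wtl l + 1) := by
  induction l using List.reverseRecOn with
  | nil => simp [wtl_nil, wd_nil, ER_apply, R_one]
  | append_singleton l y ih =>
    rw [wd_concat, dgl_concat, wtl_concat]
    rcases y with _ | k
    · change _ • (_ * tau K) - ER K (_ * tau K) ∈ _
      have e : (wtl l + wt none) • (wd l * tau K) - ER K (wd l * tau K) =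
          (wtl l • wd l - ER K (wd l)) * tau K - dR K (wd l) * (eps K * gg K 5) := by
        simp only [ER_t, wt, sub_mul, smul_mul_assoc]; module
      rw [e]
      simp only [deg, wt]
      exact sub_mem (Gs_mul' ih tau_mem (by ring) (by omega))
        (Gs_mul' (R_wd l).1 (Gs_mul eps_mem g5_mem) (by ring) (by omega))
    · change _ • (_ * gg K k) - ER K (_ * gg K k) ∈ _
      have e : (wtl l + wt (some k)) • (wd l * gg K k) - ER K (wd l * gg K k) =
          (wtl l • wd l - ER K (wd l)) * gg K k := by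
        simp only [ER_g, sub_mul, smul_mul_assoc]; module
      rw [e]
      exact Gs_mul' ih (gen_mem (some k)) rfl (by omega)

lemma Eul_mem {E : C K →ₗ[K] C K} (hE : ∀ l, wtl l • wd l - E (wd l) ∈ Gs K (dgl l) (wtl l + 1))
    {d p q : ℤ} {x : C K} (hx : x ∈ Gs K d (min p q)) : p • x - E x ∈ Gs K d (min (p + 1) q) := by
  refine Gs_ind (p • LinearMap.id - E) _ (fun l h1 h2 => ?_) hx
  have e : (p • LinearMap.id - E : C K →ₗ[K] C K) (wd l) =
      (wtl l • wd l - E (wd l)) + (p - wtl l) • wd l := by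
    simp only [LinearMap.sub_apply, LinearMap.smul_apply, LinearMap.id_apply]; module
  rw [e]
  refine add_mem (Gs_mono (hE l) h1 (by omega)) ?_
  by_cases h : p = wtl l
  · simp [h]
  · exact zsmul_mem (wd_mem l h1 (by omega)) _

end Vale.Agent.P195
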