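import Vale.Agent.P195.Ops

/-! Exactness on the level of C. -/

namespace Vale.Agent.P195

variable {K : Type} [Field K]

lemma Gs_to {d d' s s' : ℤ} {x : C K} (hx : x ∈ Gs K d s) (hd : d = d')
    (h : s' ≤ s ∨ s' ≤ 0 ∨ s' ≤ -d ∨ 4 ≤ s ∨ 5 ≤ d + s) : x ∈ Gs K d' s' := by
  by_cases h0 : 4 ≤ s ∨ 5 ≤ d + s
  · rw [Gs_zero h0 hx]; exact zero_mem _
  · exact Gs_mono hx hd (by omega)

variable (K) in
/-- the relations of the truncated algebra -/
noncomputable abbrev Kk (j v : ℤ) : Submodule K (C K) := Gs K (j - v) (min v (6 - j) + 1)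

lemma zs_zero {n : ℤ} {x y : C K} (h : n ≠ 0 → x = 0) : n • (x * y) = 0 := by
  by_cases h0 : n = 0
  · simp [h0]
  · simp [h h0]

lemma Supp_DR {f : ℤ → ℤ → ℤ → C K} (hf : Supp f) : Supp (DRC f) := by
  intro i j k h
  unfold pos at h
  simp only [DR]
  rw [hf i j k h, hf i j (k - 1) (by unfold pos; omega),
    zs_zero (fun _ => hf (i + 1) (j - 1) k (by unfold pos; omega)),
    zs_zero (fun _ => hf (i - 1) (j + 1) k (by unfold pos; omega)),
    zs_zero (fun _ => hf (i + 1) j k (by unfold pos; omega)),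
    zs_zero (fun _ => hf i (j + 1) k (by unfold pos; omega)),
    zs_zero (fun _ => hf i j (k + 1) (by unfold pos; omega))]
  simp

lemma Supp_hR {f : ℤ → ℤ → ℤ → C K} (hf : Supp f) : Supp (hR f) := by
  intro i j k h
  unfold pos at h
  simp only [hR]
  rw [hf (i - 1) j k (by unfold pos; omega), hf i (j - 1) k (by unfold pos; omega),
    hf i j (k - 1) (by unfold pos; omega)]
  simp

lemma DR_comb (f g : ℤ → ℤ → ℤ → C K) (r : K) (i j k : ℤ) :
    DRC (fun i j k => f i j k + r • g i j k) i j k = DRC f i j k + r • DRC g i j k := by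
  simp only [DR, add_mul, smul_mul_assoc]
  module

lemma DL_comb (f g : ℤ → ℤ → ℤ → C K) (r : K) (i j k : ℤ) :
    DLC (fun i j k => f i j k + r • g i j k) i j k = DLC f i j k + r • DLC g i j k := by
  simp only [DL, smul_eq_mul, mul_add, mul_smul_comm]
  module

lemma inv_comb [CharZero K] {s : ℤ} (hs : s ≠ 0) (x y : C K) :
    x + (-(s : K)⁻¹) • y = (s : K)⁻¹ • (s • x - y) := by
  have : (s : K) ≠ 0 := by exact_mod_cast hs
  rw [smul_sub, ← Int.cast_smul_eq_zsmul K, smul_smul, inv_mul_cancel₀ this]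
  module

lemma exR_lo [CharZero K] (J n : ℤ) (m : ℕ) : ∀ s : ℤ, 1 ≤ s → s + m = n + 1 →
    ∀ f : ℤ → ℤ → ℤ → C K, Supp f →
    (∀ i j k, f i j k ∈ Gs K (J - (n - 2 * (i + j + k)))
      (min (s - (i + j + k)) (n - 2 * (i + j + k) + 1))) →
    (∀ i j k, DRC f i j k ∈ Gs K (J - (n - 1 - 2 * (i + j + k))) (n - 2 * (i + j + k))) →
    ∃ g : ℤ → ℤ → ℤ → C K, Supp g ∧ (∀ i j k, g i j k ∈ Gs K (J - (n + 1 - 2 * (i + j + k))) 0) ∧
      ∀ i j k, DRC g i j k - f i j k ∈
        Gs K (J - (n - 2 * (i + j + k))) (n - 2 * (i + j + k) + 1) := by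
  induction m with
  | zero =>
    intro s _ hs f hsf hf _
    refine ⟨0, fun _ _ _ _ => rfl, fun _ _ _ => zero_mem _, fun i j k => ?_⟩
    have : DRC (0 : ℤ → ℤ → ℤ → C K) i j k = 0 := by simp [DR]
    rw [this, zero_sub]
    by_cases hp : pos i j k
    · unfold pos at hp
      exact neg_mem (Gs_to (hf i j k) rfl (by omega))
    · simp [hsf i j k hp]
  | succ m ih =>
    intro s hs1 hs f hsf hf hD
    obtain ⟨g, hg1, hg2, hg3⟩ := ih (s + 1) (by omega) (by omega)
      (fun i j k => f i j k + (-(s : K)⁻¹) • DRC (hR f) i j k)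
      (fun i j k h => by simp [hsf i j k h, Supp_DR (Supp_hR hsf) i j k h])
      (fun i j k => by
        rw [inv_comb (by omega)]
        refine Submodule.smul_mem _ _ ?_
        have e : s • f i j k - DRC (hR f) i j k =
            ((s - (i + j + k)) • f i j k - ER K (f i j k)) - dR K (f i j (k - 1)) * eps K +
              hR (DRC f) i j k := by
          rw [eq_sub_of_add_eq (DR_h f i j k)]; module
        rw [e]
        refine add_mem (sub_mem (Gs_to (Eul_mem ER_wd (hf i j k)) rfl (by omega))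
          (Gs_mul' (dR_mem (hf i j (k - 1)) rfl le_rfl) eps_mem (by ring) (by omega))) ?_
        exact add_mem (add_mem (iR0_mem (hD (i - 1) j k) (by ring) (by omega))
          (iR1_mem (hD i (j - 1) k) (by ring) (by omega)))
          (iR2_mem (hD i j (k - 1)) (by ring) (by omega)))
      (fun i j k => by rw [DR_comb, DR_sq, smul_zero, add_zero]; exact hD i j k)
    refine ⟨fun i j k => g i j k + (s : K)⁻¹ • hR f i j k,
      fun i j k h => by simp [hg1 i j k h, Supp_hR hsf i j k h], fun i j k => ?_, fun i j k => ?_⟩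
    · refine add_mem (hg2 i j k) (Submodule.smul_mem _ _ ?_)
      exact add_mem (add_mem (Gs_to (iR0_mem (hf (i - 1) j k) rfl le_rfl) (by ring) (by omega))
        (Gs_to (iR1_mem (hf i (j - 1) k) rfl le_rfl) (by ring) (by omega)))
        (Gs_to (iR2_mem (hf i j (k - 1)) rfl le_rfl) (by ring) (by omega))
    · have := hg3 i j k
      rw [DR_comb]
      rwa [show DRC g i j k - (f i j k + (-(s : K)⁻¹) • DRC (hR f) i j k) =
        DRC g i j k + (s : K)⁻¹ • DRC (hR f) i j k - f i j k by module] at this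

theorem exR [CharZero K] (J n : ℤ) (hn : 1 ≤ n) (f : ℤ → ℤ → ℤ → C K) (hsf : Supp f)
    (hf : ∀ i j k, f i j k ∈ Gs K (J - (n - 2 * (i + j + k))) 0)
    (hD : ∀ i j k, DRC f i j k ∈ Kk K J (n - 1 - 2 * (i + j + k))) :
    ∃ g : ℤ → ℤ → ℤ → C K, Supp g ∧ (∀ i j k, g i j k ∈ Gs K (J - (n + 1 - 2 * (i + j + k))) 0) ∧
      ∀ i j k, DRC g i j k - f i j k ∈ Kk K J (n - 2 * (i + j + k)) := by
  have hs0 : Supp (fun i j k => dR K (f i j k)) := fun i j k h => by simp [hsf i j k h]
  have hd0 : ∀ i j k, dR K (f i j k) ∈ Gs K (J - (n + 1 - 2 * (i + j + k))) 0 :=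
    fun i j k => dR_mem (hf i j k) (by ring) le_rfl
  by_cases hJ : 4 ≤ J
  · refine ⟨_, hs0, hd0, fun i j k => ?_⟩
    rw [eq_sub_of_add_eq (DR_d f i j k), sub_sub_cancel_left]
    have h1 : DRC f i j k ∈ Gs K (J - (n - 1 - 2 * (i + j + k))) (7 - J) :=
      Gs_to (hD i j k) rfl (by omega)
    exact neg_mem (Gs_to (dR_mem h1 rfl le_rfl) (by ring) (by omega))
  · have hD' : ∀ i j k, DRC f i j k ∈
        Gs K (J - (n - 1 - 2 * (i + j + k))) (n - 2 * (i + j + k)) :=
      fun i j k => Gs_to (hD i j k) rfl (by omega)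
    have e1 : ∀ i j k, f i j k + (-1 : K) • DRC (fun i j k => dR K (f i j k)) i j k =
        dR K (DRC f i j k) := fun i j k => by
      rw [eq_sub_of_add_eq (DR_d f i j k)]; module
    obtain ⟨g, hg1, hg2, hg3⟩ := exR_lo J n n.toNat 1 le_rfl (by omega)
      (fun i j k => f i j k + (-1 : K) • DRC (fun i j k => dR K (f i j k)) i j k)
      (fun i j k h => by simp [hsf i j k h, Supp_DR hs0 i j k h])
      (fun i j k => by
        rw [e1]
        by_cases hp : pos i j k
        · unfold pos at hp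
          exact Gs_to (dR_mem (hD' i j k) rfl le_rfl) (by ring) (by omega)
        · simp [Supp_DR hsf i j k hp])
      (fun i j k => by rw [DR_comb, DR_sq, smul_zero, add_zero]; exact hD' i j k)
    refine ⟨fun i j k => g i j k + (1 : K) • dR K (f i j k),
      fun i j k h => by simp [hg1 i j k h, hsf i j k h],
      fun i j k => add_mem (hg2 i j k) (Submodule.smul_mem _ _ (hd0 i j k)), fun i j k => ?_⟩
    have := hg3 i j k
    rw [DR_comb]
    rw [show DRC g i j k - (f i j k + (-1 : K) • DRC (fun i j k => dR K (f i j k)) i j k) =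
      DRC g i j k + (1 : K) • DRC (fun i j k => dR K (f i j k)) i j k - f i j k by module] at this
    exact Gs_to this rfl (by omega)

lemma exL_hi [CharZero K] (J n : ℤ) (hn : 4 ≤ n) (s : ℕ) :
    ∀ f : ℤ → ℤ → ℤ → C K,
    (∀ i j k, pos i j k → f i j k ∈ Gs K (n - 2 * (i + j + k) - J)
      (min (i + j + k + 3 - s) (7 - (n - 2 * (i + j + k))))) →
    (∀ i j k, pos i j k →
      DLC f i j k ∈ Gs K (n + 1 - 2 * (i + j + k) - J) (7 - (n + 1 - 2 * (i + j + k)))) →
    ∃ g : ℤ → ℤ → ℤ → C K, (∀ i j k, pos i j k → g i j k ∈ Gs K (n - 1 - 2 * (i + j + k) - J) 0) ∧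
      ∀ i j k, pos i j k → DLC g i j k - f i j k ∈
        Gs K (n - 2 * (i + j + k) - J) (7 - (n - 2 * (i + j + k))) := by
  induction s with
  | zero =>
    intro f hf _
    refine ⟨0, fun _ _ _ _ => zero_mem _, fun i j k hp => ?_⟩
    have : DLC (0 : ℤ → ℤ → ℤ → C K) i j k = 0 := by simp [DL]
    rw [this, zero_sub]
    have hp' := hp
    unfold pos at hp'
    exact neg_mem (Gs_to (hf i j k hp) rfl (by omega))
  | succ s ih =>
    intro f hf hD
    obtain ⟨g, hg2, hg3⟩ := ih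
      (fun i j k => f i j k + (-(((s : ℤ) + 1 : ℤ) : K)⁻¹) • DLC (hL f) i j k)
      (fun i j k hp => by
        rw [inv_comb (by omega)]
        refine Submodule.smul_mem _ _ ?_
        have e : ((s : ℤ) + 1) • f i j k - DLC (hL f) i j k =
            -((i + j + k + 3 - (s + 1 : ℕ)) • f i j k - EL K (f i j k)) +
              eps K * dL K (f i j (k + 1)) + hL (DLC f) i j k := by
          rw [eq_sub_of_add_eq (DL_h f i j k)]; push_cast; module
        rw [e]
        obtain ⟨hi, hj, hk⟩ := hp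
        refine add_mem (add_mem (neg_mem (Gs_to (Eul_mem EL_wd (hf i j k ⟨hi, hj, hk⟩)) rfl
          (by omega))) (Gs_mul' eps_mem (dL_mem (hf i j (k + 1) ⟨hi, hj, by omega⟩) rfl le_rfl)
            (by ring) (by omega))) ?_
        exact add_mem (add_mem (iL0_mem (hD (i + 1) j k ⟨by omega, hj, hk⟩) (by ring) (by omega))
          (iL1_mem (hD i (j + 1) k ⟨hi, by omega, hk⟩) (by ring) (by omega)))
          (iL2_mem (hD i j (k + 1) ⟨hi, hj, by omega⟩) (by ring) (by omega)))
      (fun i j k hp => by rw [DL_comb, DL_sq, smul_zero, add_zero]; exact hD i j k hp)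
    refine ⟨fun i j k => g i j k + (((s : ℤ) + 1 : ℤ) : K)⁻¹ • hL f i j k,
      fun i j k hp => ?_, fun i j k hp => ?_⟩
    · refine add_mem (hg2 i j k hp) (Submodule.smul_mem _ _ ?_)
      obtain ⟨hi, hj, hk⟩ := hp
      exact add_mem (add_mem
        (Gs_to (iL0_mem (hf (i + 1) j k ⟨by omega, hj, hk⟩) rfl le_rfl) (by ring) (by omega))
        (Gs_to (iL1_mem (hf i (j + 1) k ⟨hi, by omega, hk⟩) rfl le_rfl) (by ring) (by omega)))
        (Gs_to (iL2_mem (hf i j (k + 1) ⟨hi, hj, by omega⟩) rfl le_rfl) (by ring) (by omega))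
    · have := hg3 i j k hp
      rw [DL_comb]
      rwa [show DLC g i j k - (f i j k + (-(((s : ℤ) + 1 : ℤ) : K)⁻¹) • DLC (hL f) i j k) =
        DLC g i j k + (((s : ℤ) + 1 : ℤ) : K)⁻¹ • DLC (hL f) i j k - f i j k by module] at this

theorem exL [CharZero K] (J n : ℤ) (h : J ≤ 2 ∨ 4 ≤ n) (f : ℤ → ℤ → ℤ → C K)
    (hf : ∀ i j k, pos i j k → f i j k ∈ Gs K (n - 2 * (i + j + k) - J) 0)
    (hD : ∀ i j k, pos i j k → DLC f i j k ∈ Kk K (n + 1 - 2 * (i + j + k)) J) :
    ∃ g : ℤ → ℤ → ℤ → C K, (∀ i j k, pos i j k → g i j k ∈ Gs K (n - 1 - 2 * (i + j + k) - J) 0) ∧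
      ∀ i j k, pos i j k → DLC g i j k - f i j k ∈ Kk K (n - 2 * (i + j + k)) J := by
  by_cases hJ : J ≤ 2
  · refine ⟨fun i j k => dL K (f i j k), fun i j k hp => dL_mem (hf i j k hp) (by ring) le_rfl,
      fun i j k hp => ?_⟩
    rw [eq_sub_of_add_eq (DL_d f i j k), sub_sub_cancel_left]
    have h1 : DLC f i j k ∈ Gs K (n + 1 - 2 * (i + j + k) - J) (J + 1) :=
      Gs_to (hD i j k hp) rfl (by omega)
    exact neg_mem (Gs_to (dL_mem h1 rfl le_rfl) (by ring) (by omega))
  · obtain ⟨g, hg2, hg3⟩ := exL_hi J n (by omega) (n + 3).toNat f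
      (fun i j k hp => Gs_to (hf i j k hp) rfl (by unfold pos at hp; omega))
      (fun i j k hp => Gs_to (hD i j k hp) rfl (by omega))
    exact ⟨g, hg2, fun i j k hp => Gs_to (hg3 i j k hp) rfl (by omega)⟩

end Vale.Agent.P195
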