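import Mathlib

/-! Homological lemmas: Ext vanishing from an explicit projective resolution. -/

namespace Vale.Agent.P195

open CategoryTheory Abelian

variable {A : Type} [Ring A]

/-- an explicit projective resolution -/
structure Res (A : Type) [Ring A] (P : ℕ → Type) [∀ n, AddCommGroup (P n)] [∀ n, Module A (P n)]
    (M : Type) [AddCommGroup M] [Module A M] where
  /-- differential -/
  D : ∀ n, P (n + 1) →ₗ[A] P n
  /-- augmentation -/
  aug : P 0 →ₗ[A] M
  proj : ∀ n, Module.Projective A (P n)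
  surj : Function.Surjective aug
  ex0 : Function.Exact (D 0) aug
  ex : ∀ n, Function.Exact (D (n + 1)) (D n)

namespace Res

variable {P : ℕ → Type} [∀ n, AddCommGroup (P n)] [∀ n, Module A (P n)]
  {M : Type} [AddCommGroup M] [Module A M] (R : Res A P M)

/-- exactness of the Hom complex in degree n + 1 -/
def HE (Y : Type) [AddCommGroup Y] [Module A Y] (n : ℕ) : Prop :=
  ∀ φ : P (n + 1) →ₗ[A] Y, φ.comp (R.D (n + 1)) = 0 → ∃ ψ : P n →ₗ[A] Y, ψ.comp (R.D n) = φ

/-- syzygies -/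
noncomputable def Kc : ℕ → ModuleCat.{0} A
  | 0 => ModuleCat.of A M
  | n + 1 => ModuleCat.of A (LinearMap.range (R.D n))

/-- inclusion -/
noncomputable def ic (n : ℕ) : R.Kc (n + 1) ⟶ ModuleCat.of A (P n) :=
  ModuleCat.ofHom (LinearMap.range (R.D n)).subtype

/-- projection -/
noncomputable def pc : ∀ n : ℕ, ModuleCat.of A (P n) ⟶ R.Kc n
  | 0 => ModuleCat.ofHom R.aug
  | n + 1 => ModuleCat.ofHom (R.D n).rangeRestrict

lemma exact_ic_pc (n : ℕ) : Function.Exact (R.ic n) (R.pc n) := by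
  intro x
  cases n with
  | zero =>
    change R.aug x = 0 ↔ _
    rw [R.ex0 x]
    exact ⟨fun h => ⟨⟨x, h⟩, rfl⟩, fun ⟨y, hy⟩ => hy ▸ y.2⟩
  | succ n =>
    change (R.D n).rangeRestrict x = 0 ↔ _
    rw [Subtype.ext_iff]
    change R.D n x = 0 ↔ _
    rw [R.ex n x]
    exact ⟨fun h => ⟨⟨x, h⟩, rfl⟩, fun ⟨y, hy⟩ => hy ▸ y.2⟩

/-- the short exact sequences -/
noncomputable abbrev S (n : ℕ) : ShortComplex (ModuleCat.{0} A) :=
  ShortComplex.mk (R.ic n) (R.pc n) (by
    ext x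
    exact (R.exact_ic_pc n).apply_apply_eq_zero x)

lemma S_exact (n : ℕ) : (R.S n).ShortExact := by
  refine ModuleCat.shortComplex_shortExact _ (R.exact_ic_pc n) (Submodule.injective_subtype _) ?_
  cases n with
  | zero => exact R.surj
  | succ n => exact (R.D n).surjective_rangeRestrict

lemma projS (n : ℕ) : Projective (R.S n).X₂ := by
  have := R.proj n
  exact ModuleCat.projective_of_categoryTheory_projective (ModuleCat.of A (P n))

/-- vanishing of Ext -/
def V (X Y : ModuleCat.{0} A) (i : ℕ) : Prop := ∀ e : Ext X Y i, e = 0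

lemma V_one {Y : Type} [AddCommGroup Y] [Module A Y] {n : ℕ} (h : R.HE Y n) :
    V (R.Kc n) (ModuleCat.of A Y) 1 := by
  intro e
  have := R.projS n
  obtain ⟨x, rfl⟩ := Ext.contravariant_sequence_exact₃ (R.S_exact n) _ e
    (Ext.eq_zero_of_projective _) (add_zero 1)
  obtain ⟨f, rfl⟩ := Ext.homEquiv₀.symm.surjective x
  let f' : LinearMap.range (R.D n) →ₗ[A] Y := f.hom
  obtain ⟨ψ, hψ⟩ := h (f'.comp (R.D n).rangeRestrict) (by
    ext x
    have : (R.D n).rangeRestrict (R.D (n + 1) x) = 0 :=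
      Subtype.ext ((R.ex n).apply_apply_eq_zero x)
    simp [this])
  have hf : f = (R.S n).f ≫ ModuleCat.ofHom ψ := by
    ext ⟨_, x, rfl⟩
    exact (LinearMap.congr_fun hψ x).symm
  rw [hf, Ext.homEquiv₀_symm_apply, ← Ext.mk₀_comp_mk₀]
  exact (R.S_exact n).extClass_comp_assoc _

lemma V_down {Y : ModuleCat.{0} A} {n i : ℕ} (h : V (R.Kc (n + 1)) Y i) (hi : 1 ≤ i) :
    V (R.Kc n) Y (i + 1) := by
  intro e
  have := R.projS n
  obtain ⟨x, rfl⟩ := Ext.contravariant_sequence_exact₃ (R.S_exact n) _ e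
    (Ext.eq_zero_of_projective _) (add_comm 1 i)
  rw [h x, Ext.comp_zero]

lemma V_up {Y : ModuleCat.{0} A} {n i : ℕ} (h : V (R.Kc n) Y (i + 2)) :
    V (R.Kc (n + 1)) Y (i + 1) := by
  intro e
  have := R.projS n
  obtain ⟨x, rfl⟩ := Ext.contravariant_sequence_exact₁ (R.S_exact n) _ e
    (show 1 + (i + 1) = i + 2 by omega) (h _)
  rw [Ext.eq_zero_of_projective x, Ext.comp_zero]

lemma V_all {Y : Type} [AddCommGroup Y] [Module A Y] {N : ℕ} (h : ∀ n, N ≤ n → R.HE Y n) (i : ℕ) :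
    ∀ n, N ≤ n → V (R.Kc n) (ModuleCat.of A Y) (i + 1) := by
  induction i with
  | zero => exact fun n hn => R.V_one (h n hn)
  | succ i ih => exact fun n hn => R.V_down (ih (n + 1) (by omega)) (by omega)

lemma V_right {X : ModuleCat.{0} A} {n i : ℕ} (h : V X (R.Kc n) i)
    (h2 : V X (ModuleCat.of A (P n)) (i + 1)) : V X (R.Kc (n + 1)) (i + 1) := by
  intro e
  obtain ⟨x, rfl⟩ := Ext.covariant_sequence_exact₁ X (R.S_exact n) e (h2 _) rfl
  rw [h x, Ext.zero_comp]

theorem AR (hM : ∀ n, R.HE M n) (h0 : ∀ n, R.HE (P 0) n) (h1 : ∀ n, R.HE (P 1) n)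
    (h2 : ∀ n, R.HE (P 2) n) (hA : ∀ n, 3 ≤ n → R.HE A n) (i : ℕ) :
    V (R.Kc 3) (R.Kc 3) (i + 1) ∧ V (R.Kc 3) (ModuleCat.of A A) (i + 1) := by
  refine ⟨?_, R.V_all hA i 3 le_rfl⟩
  have a0 : V (R.Kc 0) (R.Kc 0) (i + 1) := R.V_all (N := 0) (fun n _ => hM n) i 0 le_rfl
  have a1 := R.V_right a0 (R.V_all (N := 0) (fun n _ => h0 n) _ 0 le_rfl)
  have a2 := R.V_right a1 (R.V_all (N := 0) (fun n _ => h1 n) _ 0 le_rfl)
  have a3 := R.V_right a2 (R.V_all (N := 0) (fun n _ => h2 n) _ 0 le_rfl)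
  exact R.V_up (R.V_up (R.V_up a3))

theorem not_proj {Y : Type} [AddCommGroup Y] [Module A Y] (h : ¬ R.HE Y 3) :
    ¬ Module.Projective A (R.Kc 3) := by
  intro hp
  apply h
  intro φ hφ
  have hp' : Module.Projective A (LinearMap.range (R.D 2)) := hp
  obtain ⟨s, hs⟩ := Module.projective_lifting_property (R.D 2).rangeRestrict LinearMap.id
    (R.D 2).surjective_rangeRestrict
  have hk : LinearMap.ker (R.D 3) ≤ LinearMap.ker φ := by
    intro x hx
    obtain ⟨y, rfl⟩ := (R.ex 3 x).1 hx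
    exact LinearMap.congr_fun hφ y
  let φ' : LinearMap.range (R.D 3) →ₗ[A] Y :=
    ((LinearMap.ker (R.D 3)).liftQ φ hk).comp (R.D 3).quotKerEquivRange.symm.toLinearMap
  have hφ' : ∀ x, φ' ((R.D 3).rangeRestrict x) = φ x := by
    intro x
    have : (R.D 3).quotKerEquivRange.symm ((R.D 3).rangeRestrict x) = Submodule.Quotient.mk x := by
      rw [LinearEquiv.symm_apply_eq]; rfl
    simp only [φ', LinearMap.comp_apply, LinearEquiv.coe_coe, this, Submodule.liftQ_apply]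
  let r : P 3 →ₗ[A] P 3 := LinearMap.id - s.comp (R.D 2).rangeRestrict
  have hr : ∀ x, r x ∈ LinearMap.range (R.D 3) := by
    intro x
    refine (R.ex 2 _).1 ?_
    have := congrArg Subtype.val (LinearMap.congr_fun hs ((R.D 2).rangeRestrict x))
    simp only [r, LinearMap.sub_apply, LinearMap.id_apply, map_sub, LinearMap.comp_apply]
    exact sub_eq_zero.2 this.symm
  refine ⟨φ'.comp (r.codRestrict _ hr), ?_⟩
  ext x
  rw [← hφ' x]
  simp only [LinearMap.comp_apply]
  congr 1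
  apply Subtype.ext
  have : (R.D 2).rangeRestrict (R.D 3 x) = 0 := Subtype.ext ((R.ex 2).apply_apply_eq_zero x)
  simp [r, this]

end Res

end Vale.Agent.P195
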