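import Vale.Agent.P195.Cx
import Vale.Agent.P195.Cas
import Vale.Agent.P195.Hom

/-! The counterexample. -/

namespace Vale.Agent.P195

open Finset

variable {K : Type} [Field K]

variable (K) in
/-- the module -/
def M0 : Type := W K

instance : AddCommGroup (M0 K) := inferInstanceAs (AddCommGroup (W K))

/-- underlying vector -/
def M0.v : M0 K ≃+ W K := AddEquiv.refl _

noncomputable instance : Module (Alg K) (M0 K) := Module.compHom (W K) (rho K)

lemma smul_v (a : Alg K) (m : M0 K) : M0.v (a • m) = rho K a (M0.v m) := rfl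

lemma gA_v (k : Fin 6) (m : M0 K) : M0.v (gA K k • m) = lg K k (M0.v m) := by
  rw [smul_v, gA, rho_bar, lam_g]
lemma tA_v (m : M0 K) : M0.v (tA K • m) = lt K (M0.v m) := by rw [smul_v, tA, rho_bar, lam_t]
lemma eA_v (m : M0 K) : M0.v (eA K • m) = le (M0.v m) := by rw [smul_v, eA, rho_bar, lam_eps]

lemma DLA_v (y : ℤ → ℤ → ℤ → M0 K) (i j k : ℤ) : M0.v (DLA (K := K) y i j k) =
    d0 (fun i j k => M0.v (y i j k)) i j k - le (M0.v (y i j (k + 1))) := by
  simp only [DL, d0, map_add, map_sub, map_zsmul, gA_v, tA_v, eA_v, lg_vals, LinearMap.zero_apply,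
    smul_zero, add_zero]

lemma HE_M [CharZero K] (n : ℕ) : HE' K (M0 K) n := by
  refine HE_of n fun y hy hD => ?_
  obtain ⟨z, hz⟩ := FE_W (fun i j k => M0.v (y i j k)) (by
      have := congrArg M0.v (hy 0 0 0)
      rw [smul_v, eb_pos ⟨le_rfl, le_rfl, le_rfl⟩, rho_ee] at this
      change M0.v (y 0 0 0) 0 = 0
      rw [← this, pw_apply, if_neg]
      simp only [dgW_vals]
      omega)
    (fun i j k hp => by rw [← DLA_v, hD i j k hp, map_zero])
  refine ⟨fun i j k => M0.v.symm (z i j k), fun i j k hp => M0.v.injective ?_⟩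
  rw [DLA_v]
  exact hz i j k hp

variable (K) in
/-- the generator -/
def one0 : M0 K := M0.v.symm (oneW K)

lemma one0_v : M0.v (one0 K) = oneW K := rfl

lemma ee_one : ee K 0 • one0 K = one0 K := by
  apply M0.v.injective
  rw [smul_v, rho_ee, one0_v, pw_one]

variable (K) in
/-- evaluation at a coordinate -/
noncomputable def ev (n : ℕ) (a b c : ℤ) : Pn K n →ₗ[Alg K] M0 K :=
  (LinearMap.toSpanSingleton (Alg K) (M0 K) (one0 K)).comp (co K n a b c)

lemma ev_apply (n : ℕ) (a b c : ℤ) (x : Pn K n) : ev K n a b c x = x.1 a b c • one0 K := rfl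

lemma pos0 : pos 0 0 0 := ⟨le_rfl, le_rfl, le_rfl⟩

lemma ev_gn0 : ev K 0 0 0 0 (gn K 0 0 0 0) = one0 K := by
  simp [ev_apply, gn_val, eb_pos pos0, ee_one]

lemma aug_surj : Function.Surjective (ev K 0 0 0 0) := by
  intro m
  have : ∀ J : Fin 7, ∃ a : Alg K, a • one0 K = ee K (zz J) • m := by
    intro J
    obtain ⟨a, ha⟩ := Rp_ex (j := zz J) (v := 0) (Gs_mono (sg_mem (zz J) (M0.v m)) (by ring)
      (by omega))
    refine ⟨a, M0.v.injective ?_⟩
    rw [smul_v, smul_v, rho_Rp ha, rho_ee, Module.End.mul_apply, one0_v, pw_one, lam_sg]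
  choose a ha using this
  refine ⟨∑ J, a J • gn K 0 0 0 0, ?_⟩
  simp only [map_sum, map_smul, ev_gn0, ha]
  exact (decomp m).symm

lemma gn_out {n : ℕ} {i j k : ℤ} (h : eb K n i j k = 0) : gn K n i j k = 0 := by
  rw [← eb_gn, h, zero_smul]

lemma D0_gn : Dn K 0 (gn K (0 + 1) 0 0 0) = (ee K 1 * tA K) • gn K 0 0 0 0 := by
  rw [Dn_gn, eb_pos pos0]
  have : gn K 0 0 0 1 = 0 :=
    gn_out (by rw [eb_pos ⟨le_rfl, le_rfl, by omega⟩]; exact ee_out (by omega))
  simp [DL, this, mul_smul]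

lemma aug_exact : Function.Exact (Dn K 0) (ev K 0 0 0 0) := by
  intro x
  constructor
  · intro hx
    have e0 : x.1 0 0 0 • gn K 0 0 0 0 = x := by
      have := expand x
      simpa [Box] using this
    have hr : x.1 0 0 0 * ee K 0 = x.1 0 0 0 := by
      simpa [eb_pos pos0] using x.2 0 0 0
    have : ∀ J : Fin 7, ∃ b : Alg K, b * (ee K 1 * tA K) = ee K (zz J) * x.1 0 0 0 := by
      intro J
      obtain ⟨c, hc⟩ := Rp_sandwich (x.1 0 0 0) (zz J) 0
      rw [mul_assoc, hr] at hc
      have h1 : lam K c (oneW K) = 0 := by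
        have := congrArg M0.v (congrArg (ee K (zz J) • ·) hx)
        simp only [ev_apply, smul_smul, smul_zero, map_zero] at this
        rwa [smul_v, rho_Rp hc, Module.End.mul_apply, one0_v, pw_one] at this
      obtain ⟨u, hu, q, hq, h⟩ := mem_Jd.1 (ker0 hc.mem h1)
      obtain ⟨b, hb⟩ := Rp_ex (j := zz J) (v := 1) (Gs_mono hu (by ring) (by omega))
      refine ⟨b, ?_⟩
      rw [← mul_assoc, hb.right]
      refine ((hb.mul_bar tau_mem (w := 0) (by ring)).eq_iff hc).2 ?_
      rw [h, sub_add_cancel_left]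
      have := zz_bd J
      exact neg_mem (Gs_mono hq rfl (by omega))
    choose b hb using this
    refine ⟨∑ J, b J • gn K (0 + 1) 0 0 0, ?_⟩
    simp only [map_sum, map_smul, D0_gn, smul_smul, hb]
    rw [← sum_smul, ← sum_mul, sum_ee, one_mul, e0]
  · rintro ⟨y, rfl⟩
    refine LinearMap.congr_fun (hom_ext (φ := (ev K 0 0 0 0).comp (Dn K 0)) (ψ := 0)
      fun i j k => ?_) y
    rw [LinearMap.comp_apply, LinearMap.zero_apply]
    by_cases h : i = 0 ∧ j = 0 ∧ k = 0
    · obtain ⟨rfl, rfl, rfl⟩ := h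
      rw [D0_gn, map_smul, ev_gn0, mul_smul]
      have : tA K • one0 K = 0 := by
        apply M0.v.injective
        rw [tA_v, one0_v, map_zero]
        apply W_ext <;> simp [l_vals, oneW_vals]
      rw [this, smul_zero]
    · rw [gn_out, map_zero, map_zero]
      unfold eb
      split_ifs with hp
      · unfold pos at hp
        exact ee_out (by omega)
      · rfl

variable (K) in
/-- the resolution -/
noncomputable def RR [CharZero K] : Res (Alg K) (Pn K) (M0 K) where
  D := Dn K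
  aug := ev K 0 0 0 0
  proj := Pn_proj
  surj := aug_surj
  ex0 := aug_exact
  ex := Dn_exact

variable (K) in
/-- the radical of the module -/
noncomputable def N0 : Submodule (Alg K) (M0 K) where
  carrier := {m | M0.v m 0 = 0}
  add_mem' := fun {a b} ha hb => by
    simp only [Set.mem_setOf_eq, map_add, Pi.add_apply] at *
    rw [ha, hb, add_zero]
  zero_mem' := rfl
  smul_mem' := by
    intro a m hm
    obtain ⟨b, rfl⟩ := mkA_surj a
    simp only [Set.mem_setOf_eq] at *
    rw [smul_v, rho_mk, rt_apply]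
    simp only [LinearMap.sum_apply, Finset.sum_apply, Module.End.mul_apply]
    refine sum_eq_zero fun j _ => sum_eq_zero fun i _ => lam_zero _ _ ?_
    simp [pw_apply, hm]

lemma DL_top (y : ℤ → ℤ → ℤ → M0 K ⧸ N0 K) (i j k : ℤ) : DLA (K := K) y i j k = 0 := by
  choose z hz using fun i j k => (N0 K).mkQ_surjective (y i j k)
  have : y = fun i j k => (N0 K).mkQ (z i j k) := by ext i j k; exact (hz i j k).symm
  rw [this, ← map_DL, Submodule.mkQ_apply, Submodule.Quotient.mk_eq_zero]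
  change M0.v _ 0 = 0
  rw [DLA_v]
  simp [d0, l_vals, i_vals]

lemma not_HE : ¬ HE' K (M0 K ⧸ N0 K) 3 := by
  intro h
  obtain ⟨ψ, hψ⟩ := h ((N0 K).mkQ.comp (ev K (3 + 1) 0 0 2)) (hom_ext fun i j k => by
    rw [LinearMap.comp_apply, hom_Dn, DL_top, smul_zero, LinearMap.zero_apply])
  have := LinearMap.congr_fun hψ (gn K (3 + 1) 0 0 2)
  rw [LinearMap.comp_apply, hom_Dn, DL_top, smul_zero, LinearMap.comp_apply, ev_apply, gn_val,
    if_pos ⟨rfl, rfl, rfl⟩, eb_pos ⟨le_rfl, le_rfl, by omega⟩, eq_comm, Submodule.mkQ_apply,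
    Submodule.Quotient.mk_eq_zero] at this
  norm_num at this
  rw [ee_one] at this
  exact one_ne_zero (α := K) this

theorem main [CharZero K] :
    (∀ i, Res.V ((RR K).Kc 3) ((RR K).Kc 3) (i + 1) ∧
      Res.V ((RR K).Kc 3) (ModuleCat.of (Alg K) (Alg K)) (i + 1)) ∧
    ¬ Module.Projective (Alg K) ((RR K).Kc 3) :=
  ⟨(RR K).AR HE_M (HE_P 0 (by omega)) (HE_P 1 (by omega)) (HE_P 2 le_rfl) HE_A,
    (RR K).not_proj not_HE⟩

lemma fin_M [CharZero K] : Module.Finite (Alg K) ((RR K).Kc 3) :=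
  inferInstanceAs (Module.Finite (Alg K) (LinearMap.range (Dn K 2)))

end Vale.Agent.P195
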