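import Vale.Agent.P195.Der

/-! The differentials and their homotopies. -/

namespace Vale.Agent.P195

variable {K : Type} [Field K]

/-- the differential of the resolution -/
def DR {S : Type} [Ring S] (g : Fin 6 → S) (t e : S) (f : ℤ → ℤ → ℤ → S) (i j k : ℤ) : S :=
  f i j k * t - (i - j) • (f i j k * g 2) - (i + 1) • (f (i + 1) (j - 1) k * g 0) -
    (j + 1) • (f (i - 1) (j + 1) k * g 1) + (i + 1) • (f (i + 1) j k * g 3) +
    (j + 1) • (f i (j + 1) k * g 4) + (k + 1) • (f i j (k + 1) * g 5) - f i j (k - 1) * e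

/-- the differential of the Hom complex -/
def DL {S Y : Type} [Ring S] [AddCommGroup Y] [Module S Y] (g : Fin 6 → S) (t e : S)
    (y : ℤ → ℤ → ℤ → Y) (i j k : ℤ) : Y :=
  t • y i j k - (i - j) • g 2 • y i j k - i • g 0 • y (i - 1) (j + 1) k -
    j • g 1 • y (i + 1) (j - 1) k + i • g 3 • y (i - 1) j k + j • g 4 • y i (j - 1) k +
    k • g 5 • y i j (k - 1) - e • y i j (k + 1)

/-- nonnegative indices -/
def pos (i j k : ℤ) : Prop := 0 ≤ i ∧ 0 ≤ j ∧ 0 ≤ k

instance (i j k : ℤ) : Decidable (pos i j k) := inferInstanceAs (Decidable (_ ∧ _ ∧ _))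

lemma zs_congr {Y : Type} [AddCommGroup Y] {n : ℤ} {a b : Y} (hn : 0 ≤ n) (h : 0 ≤ n - 1 → a = b) :
    n • a = n • b := by
  by_cases h0 : n = 0
  · simp [h0]
  · rw [h (by omega)]

lemma DL_congr {S Y : Type} [Ring S] [AddCommGroup Y] [Module S Y] (g : Fin 6 → S) (t e : S)
    {y z : ℤ → ℤ → ℤ → Y} (h : ∀ i j k, pos i j k → y i j k = z i j k) {i j k : ℤ}
    (hp : pos i j k) : DL g t e y i j k = DL g t e z i j k := by
  obtain ⟨hi, hj, hk⟩ := hp
  unfold DL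
  rw [h i j k ⟨hi, hj, hk⟩, h i j (k + 1) ⟨hi, hj, by omega⟩,
    zs_congr hi (fun h1 => congrArg (g 0 • ·) (h (i - 1) (j + 1) k ⟨h1, by omega, hk⟩)),
    zs_congr hj (fun h1 => congrArg (g 1 • ·) (h (i + 1) (j - 1) k ⟨by omega, h1, hk⟩)),
    zs_congr hi (fun h1 => congrArg (g 3 • ·) (h (i - 1) j k ⟨h1, hj, hk⟩)),
    zs_congr hj (fun h1 => congrArg (g 4 • ·) (h i (j - 1) k ⟨hi, h1, hk⟩)),
    zs_congr hk (fun h1 => congrArg (g 5 • ·) (h i j (k - 1) ⟨hi, hj, h1⟩))]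

/-- supported on nonnegative indices -/
def Supp {Y : Type} [Zero Y] (f : ℤ → ℤ → ℤ → Y) : Prop := ∀ i j k, ¬ pos i j k → f i j k = 0

/-- right differential on C -/
noncomputable abbrev DRC (f : ℤ → ℤ → ℤ → C K) : ℤ → ℤ → ℤ → C K := DR (gg K) (tau K) (eps K) f
/-- left differential on C -/
noncomputable abbrev DLC (f : ℤ → ℤ → ℤ → C K) : ℤ → ℤ → ℤ → C K := DL (gg K) (tau K) (eps K) f

lemma DR_sq (f : ℤ → ℤ → ℤ → C K) (i j k : ℤ) : DRC (DRC f) i j k = 0 := by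
  simp only [DR, add_mul, sub_mul, smul_mul_assoc, mul_assoc, sub_add_cancel, add_sub_cancel_right,
    mc0, mc1, mc2, mc3, mc4, mc5, tt, tau_eps, eps_g, eps_eps, g0_eps, g1_eps, g2_eps, gsq,
    g10, g20, g21, g30, g31, g32, g40, g41, g42, g43, g50, g51, g52, g53, g54, mul_add, mul_sub,
    mul_neg, mul_zero, neg_zero]
  module

lemma DL_sq (f : ℤ → ℤ → ℤ → C K) (i j k : ℤ) : DLC (DLC f) i j k = 0 := by
  simp only [DL, smul_eq_mul, add_mul, sub_mul, mul_smul_comm, ← mul_assoc, sub_add_cancel,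
    add_sub_cancel_right,
    mc0, mc1, mc2, mc3, mc4, mc5, tt, tau_eps, eps_g, eps_eps, g0_eps, g1_eps, g2_eps, gsq,
    g10, g20, g21, g30, g31, g32, g40, g41, g42, g43, g50, g51, g52, g53, g54, mul_add, mul_sub,
    neg_mul, zero_mul, neg_zero]
  module

lemma DR_d (f : ℤ → ℤ → ℤ → C K) (i j k : ℤ) :
    DRC (fun i j k => dR K (f i j k)) i j k + dR K (DRC f i j k) = f i j k := by
  simp only [DR, map_add, map_sub, map_zsmul, R_g, R_t, R_e]
  module

lemma DL_d (f : ℤ → ℤ → ℤ → C K) (i j k : ℤ) :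
    DLC (fun i j k => dL K (f i j k)) i j k + dL K (DLC f i j k) = f i j k := by
  simp only [DL, smul_eq_mul, map_add, map_sub, map_zsmul, L_g, L_t, L_e]
  module

/-- right homotopy -/
noncomputable def hR (f : ℤ → ℤ → ℤ → C K) (i j k : ℤ) : C K :=
  iR0 K (f (i - 1) j k) + iR1 K (f i (j - 1) k) + iR2 K (f i j (k - 1))

/-- left homotopy -/
noncomputable def hL (f : ℤ → ℤ → ℤ → C K) (i j k : ℤ) : C K :=
  iL0 K (f (i + 1) j k) + iL1 K (f i (j + 1) k) + iL2 K (f i j (k + 1))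

lemma DR_h (f : ℤ → ℤ → ℤ → C K) (i j k : ℤ) :
    DRC (hR f) i j k + hR (DRC f) i j k =
      (i + j + k) • f i j k + ER K (f i j k) + dR K (f i j (k - 1)) * eps K := by
  simp only [DR, hR, ER_apply, map_add, map_sub, map_zsmul, R_g, R_t, R_e, kap_vals, zero_smul,
    one_smul, add_mul, sub_add_cancel, add_sub_cancel_right]
  module

lemma DL_h (f : ℤ → ℤ → ℤ → C K) (i j k : ℤ) :
    DLC (hL f) i j k + hL (DLC f) i j k =
      (i + j + k + 3) • f i j k - EL K (f i j k) - eps K * dL K (f i j (k + 1)) := by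
  simp only [DL, smul_eq_mul, hL, EL_apply, map_add, map_sub, map_zsmul, L_g, L_t, L_e, kap_vals,
    zero_smul, one_smul, mul_add, sub_add_cancel, add_sub_cancel_right]
  module

end Vale.Agent.P195
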