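import Vale.Agent.P195.Alg

/-! The eight dimensional module. -/

namespace Vale.Agent.P195

open Finset

variable (K : Type) [Field K]

/-- underlying space -/
abbrev W := Fin 8 → K

/-- left multiplication by a -/
def la : Module.End K (W K) where
  toFun m := ![0, m 0, 0, 0, m 2, m 3, 0, m 6]
  map_add' m n := by ext s; fin_cases s <;> simp
  map_smul' r m := by ext s; fin_cases s <;> simp
/-- left multiplication by b -/
def lb : Module.End K (W K) where
  toFun m := ![0, 0, m 0, 0, -m 1, 0, m 3, -m 5]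
  map_add' m n := by ext s; fin_cases s <;> simp [add_comm]
  map_smul' r m := by ext s; fin_cases s <;> simp
/-- left multiplication by c -/
def lc : Module.End K (W K) where
  toFun m := ![0, 0, 0, m 0, 0, -m 1, -m 2, m 4]
  map_add' m n := by ext s; fin_cases s <;> simp [add_comm]
  map_smul' r m := by ext s; fin_cases s <;> simp
/-- the differential -/
def lt : Module.End K (W K) where
  toFun m := ![0, 0, 0, 0, m 3, -2 * m 1, 2 * m 2, 0]
  map_add' m n := by ext s; fin_cases s <;> simp <;> ring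
  map_smul' r m := by ext s; fin_cases s <;> simp <;> ring

/-- degrees -/
def dgW : Fin 8 → ℤ := ![0, 1, 1, 1, 2, 2, 2, 3]

/-- projection to a degree -/
def pw (v : ℤ) : Module.End K (W K) where
  toFun m s := if v = dgW s then m s else 0
  map_add' m n := by ext s; simp only [Pi.add_apply]; split_ifs <;> simp
  map_smul' r m := by ext s; simp only [Pi.smul_apply]; split_ifs <;> simp

/-- all generators -/
def lg : Fin 6 → Module.End K (W K) := ![la K, lb K, lc K, 0, 0, 0]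

variable {K}

lemma la_apply (m : W K) : la K m = ![0, m 0, 0, 0, m 2, m 3, 0, m 6] := rfl
lemma lb_apply (m : W K) : lb K m = ![0, 0, m 0, 0, -m 1, 0, m 3, -m 5] := rfl
lemma lc_apply (m : W K) : lc K m = ![0, 0, 0, m 0, 0, -m 1, -m 2, m 4] := rfl
lemma lt_apply (m : W K) : lt K m = ![0, 0, 0, 0, m 3, -2 * m 1, 2 * m 2, 0] := rfl
lemma pw_apply (v : ℤ) (m : W K) (s : Fin 8) : pw K v m s = if v = dgW s then m s else 0 := rfl

lemma lg_vals : lg K 0 = la K ∧ lg K 1 = lb K ∧ lg K 2 = lc K ∧ lg K 3 = 0 ∧ lg K 4 = 0 ∧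
    lg K 5 = 0 := ⟨rfl, rfl, rfl, rfl, rfl, rfl⟩

lemma W_ext {m n : W K} (h0 : m 0 = n 0) (h1 : m 1 = n 1) (h2 : m 2 = n 2) (h3 : m 3 = n 3)
    (h4 : m 4 = n 4) (h5 : m 5 = n 5) (h6 : m 6 = n 6) (h7 : m 7 = n 7) : m = n := by
  ext s; fin_cases s <;> assumption

lemma l_vals (m : W K) :
    (la K m 0 = 0 ∧ la K m 1 = m 0 ∧ la K m 2 = 0 ∧ la K m 3 = 0 ∧ la K m 4 = m 2 ∧
      la K m 5 = m 3 ∧ la K m 6 = 0 ∧ la K m 7 = m 6) ∧
    (lb K m 0 = 0 ∧ lb K m 1 = 0 ∧ lb K m 2 = m 0 ∧ lb K m 3 = 0 ∧ lb K m 4 = -m 1 ∧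
      lb K m 5 = 0 ∧ lb K m 6 = m 3 ∧ lb K m 7 = -m 5) ∧
    (lc K m 0 = 0 ∧ lc K m 1 = 0 ∧ lc K m 2 = 0 ∧ lc K m 3 = m 0 ∧ lc K m 4 = 0 ∧
      lc K m 5 = -m 1 ∧ lc K m 6 = -m 2 ∧ lc K m 7 = m 4) ∧
    (lt K m 0 = 0 ∧ lt K m 1 = 0 ∧ lt K m 2 = 0 ∧ lt K m 3 = 0 ∧ lt K m 4 = m 3 ∧
      lt K m 5 = -2 * m 1 ∧ lt K m 6 = 2 * m 2 ∧ lt K m 7 = 0) :=
  ⟨⟨rfl, rfl, rfl, rfl, rfl, rfl, rfl, rfl⟩, ⟨rfl, rfl, rfl, rfl, rfl, rfl, rfl, rfl⟩,
    ⟨rfl, rfl, rfl, rfl, rfl, rfl, rfl, rfl⟩, ⟨rfl, rfl, rfl, rfl, rfl, rfl, rfl, rfl⟩⟩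

lemma dgW_vals : dgW 0 = 0 ∧ dgW 1 = 1 ∧ dgW 2 = 1 ∧ dgW 3 = 1 ∧ dgW 4 = 2 ∧ dgW 5 = 2 ∧
    dgW 6 = 2 ∧ dgW 7 = 3 := ⟨rfl, rfl, rfl, rfl, rfl, rfl, rfl, rfl⟩

lemma l_anti : la K * lb K + lb K * la K = 0 ∧ la K * lc K + lc K * la K = 0 ∧
    lb K * lc K + lc K * lb K = 0 ∧ la K * la K = 0 ∧ lb K * lb K = 0 ∧ lc K * lc K = 0 := by
  refine ⟨?_, ?_, ?_, ?_, ?_, ?_⟩ <;> refine LinearMap.ext fun m => ?_ <;> apply W_ext <;>
    simp [l_vals]

lemma relsW : Rels (lg K) (lt K) where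
  anti k l := by
    obtain ⟨h1, h2, h3, h4, h5, h6⟩ := l_anti (K := K)
    rcases fin6 k with rfl | rfl | rfl | rfl | rfl | rfl <;>
    rcases fin6 l with rfl | rfl | rfl | rfl | rfl | rfl <;>
    simp only [lg_vals, mul_zero, zero_mul, add_zero, h1, h2, h3, h4, h5, h6] <;>
    rw [add_comm] <;> assumption
  sq k := by
    obtain ⟨h1, h2, h3, h4, h5, h6⟩ := l_anti (K := K)
    rcases fin6 k with rfl | rfl | rfl | rfl | rfl | rfl <;>
    simp only [lg_vals, mul_zero, h4, h5, h6]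
  mc k := by
    rcases fin6 k with rfl | rfl | rfl | rfl | rfl | rfl <;>
    simp only [lg_vals, dg_vals, mul_zero, zero_mul, add_zero, sub_zero] <;>
    refine LinearMap.ext fun m => ?_ <;> apply W_ext <;> simp [l_vals] <;> ring
  tt := by
    simp only [lg_vals, mul_zero]
    refine LinearMap.ext fun m => ?_
    apply W_ext <;> simp [l_vals]

variable (K) in
/-- the representation of C -/
noncomputable def lam : C K →ₐ[K] Module.End K (W K) := liftC (relsW (K := K))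

lemma lam_g (k : Fin 6) : lam K (gg K k) = lg K k := liftC_g _ k
lemma lam_t : lam K (tau K) = lt K := liftC_tau _

lemma pw_l (v : ℤ) : pw K (v + 1) * la K = la K * pw K v ∧ pw K (v + 1) * lb K = lb K * pw K v ∧
    pw K (v + 1) * lc K = lc K * pw K v ∧ pw K (v + 1) * lt K = lt K * pw K v := by
  have h1 : v + 1 = 1 ↔ v = 0 := by omega
  have h2 : v + 1 = 2 ↔ v = 1 := by omega
  have h3 : v + 1 = 3 ↔ v = 2 := by omega
  refine ⟨?_, ?_, ?_, ?_⟩ <;> refine LinearMap.ext fun m => ?_ <;> apply W_ext <;>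
    simp only [Module.End.mul_apply, pw_apply, l_vals, dgW_vals, h1, h2, h3] <;>
    split_ifs <;> simp

lemma pw_gen (x : Gen) (v : ℤ) :
    pw K (v + deg x) * lam K (gen K x) = lam K (gen K x) * pw K v := by
  rcases x with _ | k
  · change _ * lam K (tau K) = lam K (tau K) * _
    rw [lam_t]; exact (pw_l v).2.2.2
  · change _ * lam K (gg K k) = lam K (gg K k) * _
    rw [lam_g]
    rcases fin6 k with rfl | rfl | rfl | rfl | rfl | rfl <;>
      simp only [lg_vals, deg_vals, pw_l, mul_zero, zero_mul]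

lemma pw_wd (l : List Gen) (v : ℤ) :
    pw K (v + dgl l) * lam K (wd l) = lam K (wd l) * pw K v := by
  induction l with
  | nil => simp [dgl_nil, wd_nil]
  | cons x l ih =>
    rw [wd_cons, map_mul, dgl_cons, ← mul_assoc, show v + (deg x + dgl l) = v + dgl l + deg x by ring,
      pw_gen, mul_assoc, ih, mul_assoc]

lemma pw_lam {d s v w : ℤ} {x : C K} (hx : x ∈ Gs K d s) (h : w = v + d) :
    pw K w * lam K x = lam K x * pw K v := by
  have := Gs_ind ((LinearMap.mulLeft K (pw K w) - LinearMap.mulRight K (pw K v)).comp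
    (lam K).toLinearMap) ⊥ (fun l h1 _ => by
      subst h1 h
      simpa [sub_eq_zero] using pw_wd (K := K) l v) hx
  simpa [sub_eq_zero] using this

lemma lam_wd (l : List Gen) (h : 1 ≤ wtl l) : lam K (wd l) = 0 := by
  induction l with
  | nil => simp [wtl_nil] at h
  | cons x l ih =>
    rw [wd_cons, map_mul]
    rw [wtl_cons] at h
    rcases x with _ | k
    · rw [ih (by simpa [wt] using h), mul_zero]
    · change lam K (gg K k) * _ = 0
      rw [lam_g]
      rcases fin6 k with rfl | rfl | rfl | rfl | rfl | rfl <;>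
        simp only [lg_vals, wt_vals, zero_mul, zero_add] at h ⊢ <;> rw [ih h, mul_zero]

lemma lam_wt {d s : ℤ} {x : C K} (hx : x ∈ Gs K d s) (hs : 1 ≤ s) : lam K x = 0 :=
  Gs_ind (lam K).toLinearMap ⊥ (fun l _ h2 => lam_wd l (by omega)) hx

lemma dgW_bd (s : Fin 8) : 0 ≤ dgW s ∧ dgW s ≤ 3 := by revert s; decide

lemma pw_out {v : ℤ} (h : v < 0 ∨ 6 < v) : pw K v = 0 := by
  ext m s
  have := dgW_bd s
  simp only [LinearMap.comp_apply, pw_apply, LinearMap.zero_apply, Pi.zero_apply]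
  rw [if_neg (by omega)]

lemma pw_mul (v w : ℤ) : pw K v * pw K w = if v = w then pw K v else 0 := by
  refine LinearMap.ext fun m => funext fun s => ?_
  split_ifs with h
  · subst h
    simp only [Module.End.mul_apply, pw_apply]
    split_ifs <;> rfl
  · simp only [Module.End.mul_apply, pw_apply, LinearMap.zero_apply, Pi.zero_apply]
    split_ifs with h1 h2
    · exact absurd (h1.trans h2.symm) h
    · rfl
    · rfl

lemma pw_sum : ∑ v : Fin 7, pw K (zz v) = 1 := by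
  refine LinearMap.ext fun m => funext fun s => ?_
  have := dgW_bd s
  obtain ⟨a, ha⟩ := zz_ex (v := dgW s) (by omega)
  simp only [LinearMap.sum_apply, Finset.sum_apply, pw_apply, ha, zz_inj]
  simp

variable (K) in
/-- representation of the covering algebra -/
noncomputable def rt : At K →+* Module.End K (W K) where
  toFun b := ∑ j, ∑ i, lam K (val K b j i) * pw K (zz i)
  map_one' := by
    rw [← pw_sum, map_one]
    refine sum_congr rfl fun j _ => ?_
    rw [sum_eq_single j (fun i _ h => by simp [Matrix.one_apply_ne h.symm]) (by simp)]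
    simp
  map_mul' b b' := by
    have key : ∀ k, pw K (zz k) * ∑ j, ∑ i, lam K (val K b' j i) * pw K (zz i) =
        ∑ i, lam K (val K b' k i) * pw K (zz i) := by
      intro k
      rw [mul_sum, sum_eq_single k, mul_sum]
      · refine sum_congr rfl fun i _ => ?_
        rw [← mul_assoc, pw_lam (val_mem b' k i) (v := zz i) (by ring), mul_assoc, pw_mul,
          if_pos rfl]
      · intro k' _ hk
        rw [mul_sum]
        refine sum_eq_zero fun i _ => ?_
        rw [← pw_lam (val_mem b' k' i) (w := zz k') (by ring), ← mul_assoc, pw_mul,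
          if_neg (fun h => hk (zz_inj.1 h).symm), zero_mul]
      · simp
    simp only [sum_mul, mul_assoc, key]
    simp only [map_mul, Matrix.mul_apply, map_sum, sum_mul, mul_sum, mul_assoc]
    exact sum_congr rfl fun j _ => sum_comm
  map_zero' := by simp
  map_add' b b' := by simp [add_mul, sum_add_distrib]

lemma rt_apply (b : At K) : rt K b = ∑ j, ∑ i, lam K (val K b j i) * pw K (zz i) := rfl

variable (K) in
/-- representation of the algebra -/
noncomputable def rho : Alg K →+* Module.End K (W K) :=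
  Ideal.Quotient.lift (Kid K) (rt K) fun b hb => by
    rw [rt_apply]
    refine sum_eq_zero fun j _ => sum_eq_zero fun i _ => ?_
    have := zz_bd i
    have := zz_bd j
    rw [lam_wt (hb j i) (by omega), zero_mul]

lemma rho_mk (b : At K) : rho K (mkA K b) = rt K b := rfl

lemma rho_Rp {j v : ℤ} {a : Alg K} {x : C K} (h : Rp j v a x) : rho K a = lam K x * pw K v := by
  by_cases hj : j < 0 ∨ 6 < j
  · rw [h.zero_iff.2 (Gs_to h.mem rfl (by omega)), map_zero, ← pw_lam h.mem (w := j) (by ring),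
      pw_out hj, zero_mul]
  by_cases hv : v < 0 ∨ 6 < v
  · rw [h.zero_iff.2 (Gs_to h.mem rfl (by omega)), map_zero, pw_out hv, mul_zero]
  obtain ⟨j, rfl⟩ := zz_ex hj
  obtain ⟨v, rfl⟩ := zz_ex hv
  obtain ⟨h, rfl⟩ := h
  rw [rho_mk, rt_apply, sum_eq_single j, sum_eq_single v]
  · simp [val_mk, sm_apply]
  · intro i _ hi; simp [val_mk, sm_apply, zz_inj, hi]
  · simp
  · intro i _ hi; simp [val_mk, sm_apply, zz_inj, hi]
  · simp

lemma rho_ee (v : ℤ) : rho K (ee K v) = pw K v := by simpa using rho_Rp (Rp_ee (K := K) v)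

lemma rho_bar {d : ℤ} {y : C K} (hy : y ∈ Gs K d 0) : rho K (bar hy) = lam K y := by
  rw [← mul_one (bar hy), ← sum_ee, mul_sum, map_sum, ← mul_one (lam K y), ← pw_sum, mul_sum]
  refine sum_congr rfl fun v _ => ?_
  simpa using rho_Rp ((Rp_ee (zz v)).bar_mul hy (w := zz v + d) (by ring))

variable (K) in
/-- the unit vector -/
def oneW : W K := ![1, 0, 0, 0, 0, 0, 0, 0]

lemma oneW_vals : oneW K 0 = 1 ∧ oneW K 1 = 0 ∧ oneW K 2 = 0 ∧ oneW K 3 = 0 ∧ oneW K 4 = 0 ∧
    oneW K 5 = 0 ∧ oneW K 6 = 0 ∧ oneW K 7 = 0 := ⟨rfl, rfl, rfl, rfl, rfl, rfl, rfl, rfl⟩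

lemma pw_one : pw K 0 (oneW K) = oneW K := by
  apply W_ext <;> simp [pw_apply, oneW_vals, dgW_vals]

variable (K) in
/-- the section -/
noncomputable def sg : W K →ₗ[K] C K where
  toFun m := m 0 • 1 + m 1 • gg K 0 + m 2 • gg K 1 + m 3 • gg K 2 + m 4 • (gg K 0 * gg K 1) +
    m 5 • (gg K 0 * gg K 2) + m 6 • (gg K 1 * gg K 2) + m 7 • eps K
  map_add' m n := by simp only [Pi.add_apply]; module
  map_smul' r m := by simp only [Pi.smul_apply, smul_eq_mul, RingHom.id_apply]; module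

lemma sg_apply (m : W K) : sg K m = m 0 • 1 + m 1 • gg K 0 + m 2 • gg K 1 + m 3 • gg K 2 +
    m 4 • (gg K 0 * gg K 1) + m 5 • (gg K 0 * gg K 2) + m 6 • (gg K 1 * gg K 2) + m 7 • eps K := rfl

lemma lam_sg (m : W K) : lam K (sg K m) (oneW K) = m := by
  apply W_ext <;>
  simp [sg_apply, eps, lam_g, lg_vals, l_vals, oneW_vals]

lemma ite_mem {d e : ℤ} {b : C K} (hb : b ∈ Gs K e 0) (r : K) :
    (if d = e then r else 0) • b ∈ Gs K d 0 := by
  split_ifs with h
  · exact Submodule.smul_mem _ _ (h ▸ hb)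
  · simp

lemma sg_mem (d : ℤ) (m : W K) : sg K (pw K d m) ∈ Gs K d 0 := by
  simp only [sg_apply, pw_apply, dgW_vals]
  have h1 : gg K 0 * gg K 1 ∈ Gs K 2 0 := Gs_mul' g0_mem g1_mem (by ring) (by omega)
  have h2 : gg K 0 * gg K 2 ∈ Gs K 2 0 := Gs_mul' g0_mem g2_mem (by ring) (by omega)
  have h3 : gg K 1 * gg K 2 ∈ Gs K 2 0 := Gs_mul' g1_mem g2_mem (by ring) (by omega)
  exact add_mem (add_mem (add_mem (add_mem (add_mem (add_mem (add_mem (ite_mem one_mem _)
    (ite_mem g0_mem _)) (ite_mem g1_mem _)) (ite_mem g2_mem _))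
    (ite_mem h1 _)) (ite_mem h2 _)) (ite_mem h3 _)) (ite_mem eps_mem _)

lemma tri : gg K 0 * (gg K 1 * gg K 2) = eps K ∧ gg K 1 * (gg K 0 * gg K 2) = -eps K ∧
    gg K 2 * (gg K 0 * gg K 1) = eps K ∧ gg K 0 * (gg K 0 * gg K 1) = 0 ∧
    gg K 0 * (gg K 0 * gg K 2) = 0 ∧ gg K 1 * (gg K 0 * gg K 1) = 0 ∧
    gg K 1 * (gg K 1 * gg K 2) = 0 ∧ gg K 2 * (gg K 0 * gg K 2) = 0 ∧
    gg K 2 * (gg K 1 * gg K 2) = 0 := by
  refine ⟨?_, ?_, ?_, ?_, ?_, ?_, ?_, ?_, ?_⟩
  · rw [eps, mul_assoc]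
  · rw [← mul_assoc, g10, neg_mul, eps]
  · rw [← mul_assoc, g20, neg_mul, mul_assoc, g21, mul_neg, neg_neg, eps, mul_assoc]
  · rw [← mul_assoc, gsq, zero_mul]
  · rw [← mul_assoc, gsq, zero_mul]
  · rw [← mul_assoc, g10, neg_mul, mul_assoc, gsq, mul_zero, neg_zero]
  · rw [← mul_assoc, gsq, zero_mul]
  · rw [← mul_assoc, g20, neg_mul, mul_assoc, gsq, mul_zero, neg_zero]
  · rw [← mul_assoc, g21, neg_mul, mul_assoc, gsq, mul_zero, neg_zero]

lemma g_sg (m : W K) : gg K 0 * sg K m = sg K (la K m) ∧ gg K 1 * sg K m = sg K (lb K m) ∧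
    gg K 2 * sg K m = sg K (lc K m) := by
  refine ⟨?_, ?_, ?_⟩ <;>
  simp only [sg_apply, l_vals, mul_add, mul_smul_comm, mul_one, tri, gsq, g10, g20, g21, g0_eps,
    g1_eps, g2_eps] <;> module

/-- parity -/
def par (m : W K) : W K := ![m 0, -m 1, -m 2, -m 3, m 4, m 5, m 6, -m 7]

lemma par_vals (m : W K) : par m 0 = m 0 ∧ par m 1 = -m 1 ∧ par m 2 = -m 2 ∧ par m 3 = -m 3 ∧
    par m 4 = m 4 ∧ par m 5 = m 5 ∧ par m 6 = m 6 ∧ par m 7 = -m 7 :=
  ⟨rfl, rfl, rfl, rfl, rfl, rfl, rfl, rfl⟩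

lemma pw_par (d : ℤ) (m : W K) : pw K d (par m) = par (pw K d m) := by
  apply W_ext <;> simp only [pw_apply, par_vals] <;> split_ifs <;> simp

lemma tau2 : tau K * (gg K 0 * gg K 1) = gg K 0 * gg K 1 * tau K ∧
    tau K * (gg K 0 * gg K 2) = gg K 0 * gg K 2 * tau K ∧
    tau K * (gg K 1 * gg K 2) = gg K 1 * gg K 2 * tau K := by
  refine ⟨?_, ?_, ?_⟩ <;> rw [← mul_assoc] <;>
  simp only [mc0, mc1, mc2, sub_mul, mul_assoc, mul_sub, tri, g21, mul_neg, neg_mul, gsq,
    mul_zero] <;> abel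

lemma t_sg (m : W K) : tau K * sg K m = sg K (lt K m) + sg K (par m) * tau K := by
  simp only [sg_apply, l_vals, par_vals, mul_add, add_mul, mul_smul_comm, smul_mul_assoc, mul_one,
    one_mul, tau2, tau_eps, mc0, mc1, mc2, g20, g21]
  module

variable (K) in
/-- the left ideal defining the module -/
noncomputable def Jd (d : ℤ) : Submodule K (C K) :=
  (Gs K (d - 1) 0).map (LinearMap.mulRight K (tau K)) ⊔ Gs K d 1

lemma mem_Jd {d : ℤ} {x : C K} :
    x ∈ Jd K d ↔ ∃ u ∈ Gs K (d - 1) 0, ∃ q ∈ Gs K d 1, x = u * tau K + q := by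
  simp only [Jd, Submodule.mem_sup, Submodule.mem_map, LinearMap.mulRight_apply]
  constructor
  · rintro ⟨_, ⟨u, hu, rfl⟩, q, hq, rfl⟩; exact ⟨u, hu, q, hq, rfl⟩
  · rintro ⟨u, hu, q, hq, rfl⟩; exact ⟨_, ⟨u, hu, rfl⟩, q, hq, rfl⟩

lemma Jd_wd (l : List Gen) : wd l - sg K (lam K (wd l) (oneW K)) ∈ Jd K (dgl l) := by
  induction l with
  | nil => simp [wd_nil, sg_apply, oneW_vals]
  | cons x l ih =>
    obtain ⟨u, hu, q, hq, h⟩ := mem_Jd.1 ih
    set m := lam K (wd l) (oneW K) with hm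
    have hp : pw K (dgl l) m = m := by
      have := LinearMap.congr_fun (pw_wd (K := K) l 0) (oneW K)
      simpa [pw_one] using this
    have hx : gen K x ∈ Gs K (deg x) 0 := Gs_mono (gen_mem x) rfl (by omega)
    have e : wd (x :: l) - sg K (lam K (wd (x :: l)) (oneW K)) =
        (gen K x * u * tau K + gen K x * q) + (gen K x * sg K m - sg K (lam K (gen K x) m)) := by
      rw [wd_cons, map_mul, Module.End.mul_apply, ← hm, mul_assoc, ← mul_add, ← h, mul_sub]
      abel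
    rw [e, dgl_cons]
    refine add_mem (mem_Jd.2 ⟨_, Gs_mul' hx hu (by ring) (by omega), _,
      Gs_mul' hx hq rfl (by omega), rfl⟩) ?_
    have hs : sg K m ∈ Gs K (dgl l) 0 := hp ▸ sg_mem (dgl l) m
    rcases x with _ | k
    · change tau K * _ - sg K (lam K (tau K) m) ∈ _
      rw [lam_t, t_sg, add_sub_cancel_left]
      refine mem_Jd.2 ⟨_, ?_, 0, zero_mem _, (add_zero _).symm⟩
      have := sg_mem (dgl l) (par m)
      rw [pw_par, hp] at this
      exact Gs_mono this (by simp [deg]) (by omega)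
    · change gg K k * _ - sg K (lam K (gg K k) m) ∈ _
      rw [lam_g]
      rcases fin6 k with rfl | rfl | rfl | rfl | rfl | rfl <;>
        simp only [lg_vals, g_sg, sub_self, zero_mem, LinearMap.zero_apply, map_zero, sub_zero,
          deg_vals]
      · exact mem_Jd.2 ⟨0, zero_mem _, _, Gs_mul' g3_mem hs rfl (by omega), by simp⟩
      · exact mem_Jd.2 ⟨0, zero_mem _, _, Gs_mul' g4_mem hs rfl (by omega), by simp⟩
      · exact mem_Jd.2 ⟨0, zero_mem _, _, Gs_mul' g5_mem hs rfl (by omega), by simp⟩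

lemma ker0 {d : ℤ} {x : C K} (hx : x ∈ Gs K d 0) (h : lam K x (oneW K) = 0) : x ∈ Jd K d := by
  have := Gs_ind (LinearMap.id - (sg K).comp ((LinearMap.applyₗ (oneW K)).comp
    (lam K).toLinearMap)) (Jd K d) (fun l h1 _ => h1 ▸ Jd_wd l) hx
  simpa [h] using this

lemma lam_zero (x : C K) (m : W K) (h : m 0 = 0) : lam K x m 0 = 0 := by
  refine lin_ext (φ := (LinearMap.proj 0).comp ((LinearMap.applyₗ m).comp (lam K).toLinearMap))
    (ψ := 0) (fun l => ?_) x
  change lam K (wd l) m 0 = 0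
  cases l with
  | nil => simpa [wd_nil] using h
  | cons x l =>
    rw [wd_cons, map_mul, Module.End.mul_apply]
    rcases x with _ | k
    · change lam K (tau K) _ 0 = 0
      rw [lam_t]; rfl
    · change lam K (gg K k) _ 0 = 0
      rw [lam_g]
      rcases fin6 k with rfl | rfl | rfl | rfl | rfl | rfl <;> rfl

end Vale.Agent.P195
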